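import Mathlib
import Crest.Prelude.Def_MarkovType

/-!
Row 140 (S0191), part 1: random walks driven by finitely many involutions of a finite set,
and the Markov type inequality for such walks.
-/

set_option autoImplicit false

namespace Crest.Agent.R140

open Finset Filter Topology

/-- Prepend a letter to an infinite word. -/
def scons {C : Type} (c : C) (w : ℕ → C) : ℕ → C
  | 0 => c
  | n + 1 => w n

@[simp] lemma scons_zero {C : Type} (c : C) (w : ℕ → C) : scons c w 0 = c := rfl
@[simp] lemma scons_succ {C : Type} (c : C) (w : ℕ → C) (n : ℕ) : scons c w (n + 1) = w n := rfl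

/-- Sum of `g` over all words whose first `t` letters are free and the others are `default`. -/
noncomputable def W {C : Type} [Fintype C] [Inhabited C] : ℕ → ((ℕ → C) → ℝ) → ℝ
  | 0, g => g (fun _ => default)
  | t + 1, g => ∑ c, W t (fun w => g (scons c w))

/-- Position after `s` steps of the walk started at `x` and driven by the word `w`. -/
def pos {S C : Type} (τ : C → S → S) (x : S) (w : ℕ → C) : ℕ → S
  | 0 => x
  | s + 1 => τ (w s) (pos τ x w s)

@[simp] lemma pos_zero {S C : Type} (τ : C → S → S) (x : S) (w : ℕ → C) : pos τ x w 0 = x := rfl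
lemma pos_succ {S C : Type} (τ : C → S → S) (x : S) (w : ℕ → C) (s : ℕ) :
    pos τ x w (s + 1) = τ (w s) (pos τ x w s) := rfl

lemma pos_scons {S C : Type} (τ : C → S → S) (x : S) (c : C) (w : ℕ → C) (s : ℕ) :
    pos τ x (scons c w) (s + 1) = pos τ (τ c x) w s := by
  induction s with
  | zero => rfl
  | succ s ih => rw [pos_succ, ih]; rfl

section W
variable {C : Type} [Fintype C] [Inhabited C]

lemma W_zero (g : (ℕ → C) → ℝ) : W 0 g = g (fun _ => default) := rfl
lemma W_succ (t : ℕ) (g : (ℕ → C) → ℝ) : W (t + 1) g = ∑ c, W t (fun w => g (scons c w)) := rfl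

lemma W_mono (t : ℕ) : ∀ {g h : (ℕ → C) → ℝ}, (∀ w, g w ≤ h w) → W t g ≤ W t h := by
  induction t with
  | zero => intro g h H; exact H _
  | succ t ih => intro g h H; exact Finset.sum_le_sum fun c _ => ih fun w => H _

lemma W_add (t : ℕ) : ∀ (g h : (ℕ → C) → ℝ), W t (fun w => g w + h w) = W t g + W t h := by
  induction t with
  | zero => intro g h; rfl
  | succ t ih =>
    intro g h
    simp only [W_succ, ← Finset.sum_add_distrib]
    exact Finset.sum_congr rfl fun c _ => ih _ _

lemma W_mul (t : ℕ) (a : ℝ) : ∀ (g : (ℕ → C) → ℝ), W t (fun w => a * g w) = a * W t g := by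
  induction t with
  | zero => intro g; rfl
  | succ t ih =>
    intro g
    simp only [W_succ, Finset.mul_sum]
    exact Finset.sum_congr rfl fun c _ => ih _

lemma W_const (t : ℕ) (a : ℝ) :
    W t (fun _ : ℕ → C => a) = (Fintype.card C : ℝ) ^ t * a := by
  induction t with
  | zero => simp [W_zero]
  | succ t ih =>
    simp only [W_succ, ih, Finset.sum_const, Finset.card_univ, nsmul_eq_mul]
    ring

lemma W_sub (t : ℕ) (g h : (ℕ → C) → ℝ) : W t (fun w => g w - h w) = W t g - W t h := by
  have h1 := W_add t g (fun w => (-1) * h w)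
  rw [W_mul] at h1
  have : (fun w => g w - h w) = fun w => g w + (-1) * h w := by funext w; ring
  rw [this, h1]; ring

lemma W_nonneg (t : ℕ) {g : (ℕ → C) → ℝ} (hg : ∀ w, 0 ≤ g w) : 0 ≤ W t g := by
  have := W_mono t (g := fun _ => (0 : ℝ)) (h := g) hg
  rwa [W_const, mul_zero] at this

lemma W_sum {ι : Type*} (s : Finset ι) (t : ℕ) (g : ι → (ℕ → C) → ℝ) :
    W t (fun w => ∑ i ∈ s, g i w) = ∑ i ∈ s, W t (g i) := by
  classical
  induction s using Finset.induction_on with
  | empty => simp [W_const]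
  | insert a s ha ih =>
    simp only [Finset.sum_insert ha]
    rw [W_add, ih]

lemma W_tendsto {ι : Type*} {F : Filter ι} (t : ℕ) :
    ∀ (g : ι → (ℕ → C) → ℝ) (h : (ℕ → C) → ℝ),
      (∀ w, Tendsto (fun i => g i w) F (𝓝 (h w))) → Tendsto (fun i => W t (g i)) F (𝓝 (W t h)) := by
  induction t with
  | zero => intro g h H; exact H _
  | succ t ih =>
    intro g h H
    simp only [W_succ]
    exact tendsto_finsetSum _ fun c _ => ih (fun i w => g i (scons c w)) _ fun w => H _

end W

/-- The Markov type inequality for the cost function `Φ`, for walks driven by involutions. -/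
def MT {V : Type*} [AddCommGroup V] (κ : ℝ) (Φ : V → ℝ) : Prop :=
  ∀ (S C : Type) [Fintype S] [Fintype C] [Inhabited C] (τ : C → S → S),
    (∀ c x, τ c (τ c x) = x) → ∀ (f : S → V) (t : ℕ), 1 ≤ t →
    (Fintype.card C : ℝ) * ∑ x, W t (fun w => Φ (f (pos τ x w t) - f x)) ≤
      κ * t * (Fintype.card C : ℝ) ^ t * ∑ x, ∑ c, Φ (f (τ c x) - f x)

lemma MT.comp {V V' : Type*} [AddCommGroup V] [AddCommGroup V'] {κ : ℝ} {Φ : V → ℝ}
    (h : MT κ Φ) (L : V' →+ V) : MT κ (fun v => Φ (L v)) := by
  intro S C _ _ _ τ hτ f t ht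
  have := h S C τ hτ (fun x => L (f x)) t ht
  simpa only [map_sub] using this

lemma MT.add {V : Type*} [AddCommGroup V] {κ : ℝ} {Φ Ψ : V → ℝ}
    (h : MT κ Φ) (h' : MT κ Ψ) : MT κ (fun v => Φ v + Ψ v) := by
  intro S C _ _ _ τ hτ f t ht
  have h1 := h S C τ hτ f t ht
  have h2 := h' S C τ hτ f t ht
  simp only [W_add, Finset.sum_add_distrib]
  linarith

lemma MT.const_mul {V : Type*} [AddCommGroup V] {κ : ℝ} {Φ : V → ℝ}
    (h : MT κ Φ) {a : ℝ} (ha : 0 ≤ a) : MT κ (fun v => a * Φ v) := by
  intro S C _ _ _ τ hτ f t ht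
  have h1 := h S C τ hτ f t ht
  simp only [W_mul, ← Finset.mul_sum]
  have := mul_le_mul_of_nonneg_left h1 ha
  linarith

lemma MT.of_tendsto {V : Type*} [AddCommGroup V] {κ : ℝ} {ι : Type*} {F : Filter ι} [NeBot F]
    {Φ : ι → V → ℝ} {Ψ : V → ℝ} (h : ∀ᶠ i in F, MT κ (Φ i))
    (hl : ∀ v, Tendsto (fun i => Φ i v) F (𝓝 (Ψ v))) : MT κ Ψ := by
  intro S C _ _ _ τ hτ f t ht
  refine le_of_tendsto_of_tendsto (b := F)
    (f := fun i => (Fintype.card C : ℝ) * ∑ x, W t (fun w => Φ i (f (pos τ x w t) - f x)))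
    (g := fun i => κ * t * (Fintype.card C : ℝ) ^ t * ∑ x, ∑ c, Φ i (f (τ c x) - f x)) ?_ ?_ ?_
  · refine Tendsto.const_mul _ (tendsto_finsetSum _ fun x _ => ?_)
    exact W_tendsto t _ _ fun w => hl _
  · exact Tendsto.const_mul _ (tendsto_finsetSum _ fun x _ => tendsto_finsetSum _ fun c _ => hl _)
  · filter_upwards [h] with i hi using hi S C τ hτ f t ht

theorem mt_of_hasMarkovType {X : Type*} [NormedAddCommGroup X] {p K : ℝ}
    (hX : Crest.AnalysisR.HasMarkovType X p K) : MT (K ^ p) (fun v : X => ‖v‖ ^ p) := by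
  classical
  intro S C _ _ _ τ hτ f t ht
  rcases isEmpty_or_nonempty S with hS | hS
  · simp
  have hd : (0 : ℝ) < Fintype.card C := by exact_mod_cast Fintype.card_pos
  have hn : (0 : ℝ) < Fintype.card S := by exact_mod_cast Fintype.card_pos
  set d : ℝ := (Fintype.card C : ℝ) with hdd
  set n : ℝ := (Fintype.card S : ℝ) with hnn
  let P : Matrix S S ℝ := fun i j => d⁻¹ * ∑ c, if τ c i = j then 1 else 0
  have hP1 : ∀ (i : S) (g : S → ℝ), ∑ j, P i j * g j = d⁻¹ * ∑ c, g (τ c i) := by
    intro i g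
    simp only [P, mul_assoc, ← Finset.mul_sum, Finset.sum_mul]
    rw [Finset.sum_comm]
    congr 1
    refine Finset.sum_congr rfl fun c _ => ?_
    simp
  have hPt : ∀ (t : ℕ) (i : S) (g : S → ℝ),
      d ^ t * ∑ j, (P ^ t) i j * g j = W t (fun w => g (pos τ i w t)) := by
    intro t
    induction t with
    | zero => intro i g; simp [W_zero, Matrix.one_apply]
    | succ t ih =>
      intro i g
      rw [W_succ]
      simp only [pos_scons]
      simp only [← ih]
      rw [pow_succ' P t]
      simp only [Matrix.mul_apply, Finset.sum_mul, mul_assoc]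
      rw [Finset.sum_comm]
      simp only [← Finset.mul_sum]
      rw [hP1 i (fun k => ∑ j, (P ^ t) k j * g j)]
      field_simp
      ring
  have key := hX S (fun _ => n⁻¹) P (fun _ => by positivity)
    (by simp only [Finset.sum_const, Finset.card_univ, nsmul_eq_mul]; rw [← hnn]; field_simp)
    (fun i j => by
      simp only [P]
      refine mul_nonneg (by positivity) (Finset.sum_nonneg fun c _ => ?_)
      split_ifs <;> norm_num)
    (fun i => by
      have := hP1 i (fun _ => 1)
      simp only [mul_one, Finset.sum_const, Finset.card_univ, nsmul_eq_mul] at this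
      rw [this, ← hdd]; field_simp)
    (fun i j => by
      simp only [P]
      congr 2
      refine Finset.sum_congr rfl fun c _ => ?_
      have : τ c i = j ↔ τ c j = i := by
        constructor
        · rintro rfl; exact hτ _ _
        · rintro rfl; exact hτ _ _
      simp only [this])
    f t ht
  simp only [mul_assoc, ← Finset.mul_sum] at key
  have e1 : ∀ i, W t (fun w => ‖f (pos τ i w t) - f i‖ ^ p) =
      d ^ t * ∑ j, (P ^ t) i j * ‖f j - f i‖ ^ p := fun i =>
    (hPt t i (fun j => ‖f j - f i‖ ^ p)).symm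
  have e2 : ∀ i, ∑ c, ‖f (τ c i) - f i‖ ^ p = d * ∑ j, P i j * ‖f j - f i‖ ^ p := by
    intro i
    rw [hP1 i (fun j => ‖f j - f i‖ ^ p)]
    field_simp
  simp only [e1, e2, ← Finset.mul_sum]
  have h3 := mul_le_mul_of_nonneg_left key (by positivity : 0 ≤ n * d * d ^ t)
  have e3 : ∀ a : ℝ, n * d * d ^ t * (n⁻¹ * a) = d * (d ^ t * a) := by
    intro a; field_simp
  have e4 : ∀ a : ℝ, n * d * d ^ t * (K ^ p * (t * (n⁻¹ * a))) = K ^ p * t * d ^ t * (d * a) := by
    intro a; field_simp
  rw [e3, e4] at h3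
  exact h3

end Crest.Agent.R140
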