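import Crest.Agent.R140.Basic

/-!
Row 140 (S0191), part 4: the class of seminorms on finitely supported sequences used in the proof.
-/

set_option autoImplicit false

namespace Crest.Agent.R140

open Finset Filter Topology

/-- Finitely supported real sequences. -/
abbrev c00 : Type := ℕ →₀ ℝ

/-- The tail sum `∑_{i ≥ k} a i`. -/
noncomputable def tail (k : ℕ) : c00 →ₗ[ℝ] ℝ :=
  Finsupp.linearCombination ℝ (fun i => if k ≤ i then (1 : ℝ) else 0)

lemma tail_single (k i : ℕ) (x : ℝ) : tail k (Finsupp.single i x) = if k ≤ i then x else 0 := by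
  simp [tail]

lemma tail_mapDomain (k k' : ℕ) (g : ℕ → ℕ) (hg : ∀ i, k' ≤ g i ↔ k ≤ i) (a : c00) :
    tail k' (Finsupp.mapDomain g a) = tail k a := by
  simp only [tail, Finsupp.linearCombination_mapDomain]
  congr 2
  funext i
  simp [hg]

/-- Seminorms on `c00` with Markov type, normalised basis, and `θ`-bounded tail sums
(for the tails starting before `n`). -/
structure Good (κ p θ : ℝ) (n : ℕ∞) (N : c00 → ℝ) : Prop where
  add_le : ∀ u v, N (u + v) ≤ N u + N v
  smul : ∀ (c : ℝ) u, N (c • u) = |c| * N u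
  mt : MT κ (fun v => N v ^ p)
  single_le : ∀ i, N (Finsupp.single i 1) ≤ 1
  lower : ∀ (k : ℕ) a, (k : ℕ∞) < n → θ * |tail k a| ≤ N a

namespace Good
variable {κ p θ : ℝ} {n : ℕ∞} {N : c00 → ℝ}

lemma zero (h : Good κ p θ n N) : N 0 = 0 := by
  have := h.smul 0 0
  simpa using this

lemma neg (h : Good κ p θ n N) (u : c00) : N (-u) = N u := by
  have := h.smul (-1) u
  simpa using this

lemma nonneg (h : Good κ p θ n N) (u : c00) : 0 ≤ N u := by
  have h1 := h.add_le u (-u)
  rw [add_neg_cancel, h.zero, h.neg] at h1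
  linarith

lemma sum_le (h : Good κ p θ n N) {ι : Type*} (s : Finset ι) (f : ι → c00) :
    N (∑ i ∈ s, f i) ≤ ∑ i ∈ s, N (f i) := by
  classical
  induction s using Finset.induction_on with
  | empty => simp [h.zero]
  | insert a s ha ih =>
    rw [Finset.sum_insert ha, Finset.sum_insert ha]
    exact (h.add_le _ _).trans (by linarith)

lemma single_le' (h : Good κ p θ n N) (i : ℕ) (x : ℝ) : N (Finsupp.single i x) ≤ |x| := by
  have : Finsupp.single i x = x • Finsupp.single i (1 : ℝ) := by simp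
  rw [this, h.smul]
  have := h.single_le i
  nlinarith [abs_nonneg x]

lemma le_l1 (h : Good κ p θ n N) (a : c00) : N a ≤ ∑ i ∈ a.support, |a i| := by
  conv_lhs => rw [← Finsupp.sum_single a]
  exact (h.sum_le _ _).trans (Finset.sum_le_sum fun i _ => h.single_le' _ _)

lemma of_tendsto (hp : 0 ≤ p) {ι : Type*} {F : Filter ι} [NeBot F] {Ns : ι → c00 → ℝ}
    {ns : ι → ℕ∞} (h : ∀ᶠ i in F, Good κ p θ (ns i) (Ns i))
    (hn : ∀ k : ℕ, (k : ℕ∞) < n → ∀ᶠ i in F, (k : ℕ∞) < ns i)
    (hl : ∀ v, Tendsto (fun i => Ns i v) F (𝓝 (N v))) : Good κ p θ n N where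
  add_le u v := le_of_tendsto_of_tendsto (hl (u + v)) ((hl u).add (hl v))
    (by filter_upwards [h] with i hi using hi.add_le u v)
  smul c u := tendsto_nhds_unique_of_eventuallyEq (hl (c • u)) ((hl u).const_mul |c|)
    (by filter_upwards [h] with i hi using hi.smul c u)
  mt := MT.of_tendsto (F := F) (Φ := fun i v => Ns i v ^ p)
    (by filter_upwards [h] with i hi using hi.mt)
    (fun v => (hl v).rpow_const (Or.inr hp))
  single_le i := le_of_tendsto (hl _) (by filter_upwards [h] with j hj using hj.single_le i)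
  lower k a hk := ge_of_tendsto (hl a)
    (by filter_upwards [h, hn k hk] with j hj hj' using hj.lower k a hj')

lemma comp (h : Good κ p θ n N) {n' : ℕ∞} (L : c00 →ₗ[ℝ] c00)
    (h1 : ∀ i, N (L (Finsupp.single i 1)) ≤ 1)
    (h2 : ∀ k : ℕ, (k : ℕ∞) < n' → ∃ k' : ℕ, (k' : ℕ∞) < n ∧ ∀ a, tail k' (L a) = tail k a) :
    Good κ p θ n' (fun a => N (L a)) where
  add_le u v := by rw [map_add]; exact h.add_le _ _
  smul c u := by rw [map_smul]; exact h.smul _ _
  mt := h.mt.comp L.toAddMonoidHom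
  single_le := h1
  lower k a hk := by
    obtain ⟨k', hk', e⟩ := h2 k hk
    rw [← e]; exact h.lower _ _ hk'

end Good

/-- Invariance under spreading. -/
def Spread (N : c00 → ℝ) : Prop :=
  ∀ (g : ℕ → ℕ) (a : c00), StrictMonoOn g a.support → N (Finsupp.mapDomain g a) = N a

/-- Replace every basis vector by the average of a block of `t` consecutive basis vectors. -/
noncomputable def blk (t : ℕ) : c00 →ₗ[ℝ] c00 :=
  (t : ℝ)⁻¹ • ∑ s ∈ range t, Finsupp.lmapDomain ℝ ℝ (fun i => t * i + s)

lemma blk_apply (t : ℕ) (a : c00) :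
    blk t a = (t : ℝ)⁻¹ • ∑ s ∈ range t, Finsupp.mapDomain (fun i => t * i + s) a := by
  simp [blk, LinearMap.sum_apply]

lemma mem_support_blk {t : ℕ} {a : c00} {n : ℕ} (hn : n ∈ (blk t a).support) :
    ∃ i ∈ a.support, ∃ s < t, n = t * i + s := by
  classical
  rw [blk_apply] at hn
  have h1 := Finsupp.support_smul hn
  have h2 := Finsupp.support_finsetSum h1
  simp only [Finset.mem_biUnion, Finset.mem_range] at h2
  obtain ⟨s, hs, h3⟩ := h2
  have h4 := Finsupp.mapDomain_support h3
  simp only [Finset.mem_image] at h4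
  obtain ⟨i, hi, rfl⟩ := h4
  exact ⟨i, hi, s, hs, rfl⟩

lemma strictMonoOn_Iio_of_succ {f : ℕ → ℕ} {L : ℕ} (h : ∀ n, n + 1 < L → f n < f (n + 1)) :
    StrictMonoOn f (Set.Iio L) := by
  intro a _ b hb hab
  simp only [Set.mem_Iio] at hb
  induction b with
  | zero => omega
  | succ b ih =>
    rcases Nat.lt_succ_iff_lt_or_eq.1 hab with h1 | h1
    · exact (ih h1 (by omega)).trans (h b hb)
    · subst h1; exact h a hb

end Crest.Agent.R140
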