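import Crest.Agent.R140.Basic

/-!
Row 140 (S0191), part 2: the Markov type inequality for antisymmetric one-forms, by passing to a
large box in an abelian cover.
-/

set_option autoImplicit false

namespace Crest.Agent.R140

open Finset Filter Topology

lemma exists_box (k t : ℕ) : ∃ n : ℕ, 0 < n ∧ ((n : ℝ) + 2 * t) ^ k ≤ 2 * (n : ℝ) ^ k := by
  have h1 : Tendsto (fun n : ℕ => (1 + (2 * t : ℝ) / (n : ℝ)) ^ k) atTop (𝓝 ((1 + 0) ^ k)) :=
    (tendsto_const_nhds.add (tendsto_const_div_atTop_nhds_zero_nat _)).pow k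
  have h2 : ∀ᶠ n : ℕ in atTop, (1 + (2 * t : ℝ) / (n : ℝ)) ^ k < 2 :=
    h1.eventually (gt_mem_nhds (by norm_num))
  obtain ⟨n, hn1, hn2⟩ := (h2.and (eventually_gt_atTop 0)).exists
  refine ⟨n, hn2, ?_⟩
  have hn : (0 : ℝ) < n := by exact_mod_cast hn2
  have : (n : ℝ) + 2 * t = (1 + (2 * t : ℝ) / (n : ℝ)) * n := by field_simp
  rw [this, mul_pow]
  exact mul_le_mul_of_nonneg_right hn1.le (by positivity)

theorem MT.oneForm {V : Type*} [AddCommGroup V] [Module ℝ V] {κ : ℝ} (hκ : 0 ≤ κ) {Φ : V → ℝ}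
    (h : MT κ Φ) (h0 : Φ 0 = 0) (hΦ : ∀ v, 0 ≤ Φ v)
    (S C : Type) [Fintype S] [Fintype C] [Inhabited C] (τ : C → S → S)
    (hτ : ∀ c x, τ c (τ c x) = x)
    (ω : S → C → V) (hω : ∀ x c, ω (τ c x) c = - ω x c) (t : ℕ) (ht : 1 ≤ t) :
    (Fintype.card C : ℝ) * ∑ x, W t (fun w => Φ (∑ s ∈ range t, ω (pos τ x w s) (w s))) ≤
      2 * κ * t * (Fintype.card C : ℝ) ^ t * ∑ x, ∑ c, Φ (ω x c) := by
  classical
  obtain ⟨n, hn0, hn⟩ := exists_box (Fintype.card (S × C)) t
  let mv : S → C → (S × C → ℤ) := fun x c => Pi.single (x, c) 1 - Pi.single (τ c x, c) 1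
  have mv_neg : ∀ x c, mv (τ c x) c = - mv x c := by
    intro x c; simp only [mv, hτ]; abel
  have mv_abs : ∀ x c i, |mv x c i| ≤ 1 := by
    intro x c i
    simp only [mv, Pi.sub_apply, Pi.single_apply]
    split_ifs <;> simp
  let Box : Finset (S × C → ℤ) := Fintype.piFinset fun _ => Finset.Ico (0 : ℤ) (n + 2 * t)
  let Inner : Finset (S × C → ℤ) := Fintype.piFinset fun _ => Finset.Ico (t : ℤ) (n + t)
  have hIB : Inner ⊆ Box := by
    intro z hz
    simp only [Inner, Box, Fintype.mem_piFinset, Finset.mem_Ico] at hz ⊢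
    intro i; have := hz i; constructor <;> omega
  have cardB : (Box.card : ℝ) = ((n : ℝ) + 2 * t) ^ Fintype.card (S × C) := by
    simp only [Box, Fintype.card_piFinset, Int.card_Ico, Finset.prod_const, Finset.card_univ]
    have : ((n : ℤ) + 2 * t - 0).toNat = n + 2 * t := by omega
    rw [this]; push_cast; ring
  have cardI : (Inner.card : ℝ) = (n : ℝ) ^ Fintype.card (S × C) := by
    simp only [Inner, Fintype.card_piFinset, Int.card_Ico, Finset.prod_const, Finset.card_univ]
    have : ((n : ℤ) + t - t).toNat = n := by omega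
    rw [this]; push_cast; ring
  let F : (S × C → ℤ) → V := fun z => ∑ i, ((z i : ℝ) / 2) • ω i.1 i.2
  have F_add : ∀ z z', F (z + z') = F z + F z' := by
    intro z z'
    simp only [F, ← Finset.sum_add_distrib, ← add_smul, Pi.add_apply]
    refine Finset.sum_congr rfl fun i _ => ?_
    push_cast; ring_nf
  have F_zero : F 0 = 0 := by simp [F]
  have F_single : ∀ j : S × C, F (Pi.single j 1) = (1 / 2 : ℝ) • ω j.1 j.2 := by
    intro j
    simp only [F]
    rw [Finset.sum_eq_single j]
    · simp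
    · intro i _ hij; simp [hij]
    · simp
  have F_mv : ∀ x c, F (mv x c) = ω x c := by
    intro x c
    have h1 : F (mv x c + Pi.single (τ c x, c) 1) = F (Pi.single (x, c) 1) := by
      congr 1; simp only [mv]; abel
    rw [F_add, F_single, F_single] at h1
    simp only [hω] at h1
    have h2 : F (mv x c) = (1 / 2 : ℝ) • ω x c - (1 / 2 : ℝ) • (- ω x c) := by
      rw [← h1]; abel
    rw [h2, smul_neg, sub_neg_eq_add, ← add_smul]; norm_num
  have F_sum : ∀ (g : ℕ → (S × C → ℤ)) (s : ℕ), F (∑ r ∈ range s, g r) = ∑ r ∈ range s, F (g r) := by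
    intro g s
    induction s with
    | zero => simp [F_zero]
    | succ s ih => rw [Finset.sum_range_succ, Finset.sum_range_succ, F_add, ih]
  let τ' : C → S × Box → S × Box := fun c y =>
    if h : (y.2 : S × C → ℤ) + mv y.1 c ∈ Box then (τ c y.1, ⟨_, h⟩) else y
  have hτ' : ∀ c y, τ' c (τ' c y) = y := by
    rintro c ⟨x, z⟩
    by_cases hz : (z : S × C → ℤ) + mv x c ∈ Box
    · have e1 : τ' c (x, z) = (τ c x, ⟨_, hz⟩) := by simp only [τ', hz, dite_true]
      have e2 : (z : S × C → ℤ) + mv x c + mv (τ c x) c = z := by rw [mv_neg]; abel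
      have hz2 : (z : S × C → ℤ) + mv x c + mv (τ c x) c ∈ Box := by rw [e2]; exact z.2
      rw [e1]
      simp only [τ', hz2, dite_true, hτ]
      congr 1
      exact Subtype.ext e2
    · have e1 : τ' c (x, z) = (x, z) := by simp only [τ', hz, dite_false]
      rw [e1, e1]
  have key := h (S × Box) C τ' hτ' (fun y => F y.2) t ht
  -- inner starting points are never rejected
  have inner : ∀ (x : S) (z : Box), (z : S × C → ℤ) ∈ Inner → ∀ (w : ℕ → C) (s : ℕ), s ≤ t →
      (pos τ' (x, z) w s).1 = pos τ x w s ∧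
      ((pos τ' (x, z) w s).2 : S × C → ℤ) = z + ∑ r ∈ range s, mv (pos τ x w r) (w r) := by
    intro x z hz w s
    have hb : ∀ s i, |(∑ r ∈ range s, mv (pos τ x w r) (w r)) i| ≤ s := by
      intro s i
      rw [Finset.sum_apply]
      refine (Finset.abs_sum_le_sum_abs _ _).trans ?_
      refine (Finset.sum_le_sum fun r _ => mv_abs _ _ i).trans ?_
      simp
    induction s with
    | zero => intro _; simp
    | succ s ih =>
      intro hs
      obtain ⟨ih1, ih2⟩ := ih (by omega)
      have e2 : ((pos τ' (x, z) w s).2 : S × C → ℤ) + mv (pos τ' (x, z) w s).1 (w s) =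
          z + ∑ r ∈ range (s + 1), mv (pos τ x w r) (w r) := by
        rw [ih1, ih2, Finset.sum_range_succ, add_assoc]
      have hmem : ((pos τ' (x, z) w s).2 : S × C → ℤ) + mv (pos τ' (x, z) w s).1 (w s) ∈ Box := by
        rw [e2]
        simp only [Inner, Box, Fintype.mem_piFinset, Finset.mem_Ico] at hz ⊢
        intro i
        have h1 := hz i
        have h2 := abs_le.1 (hb (s + 1) i)
        rw [Pi.add_apply]
        push_cast at h2
        constructor <;> omega
      rw [pos_succ]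
      have e3 : τ' (w s) (pos τ' (x, z) w s) = (τ (w s) (pos τ' (x, z) w s).1, ⟨_, hmem⟩) := by
        simp only [τ', hmem, dite_true]
      rw [e3]
      exact ⟨congrArg (τ (w s)) ih1, e2⟩
  have hL : (Inner.card : ℝ) * ∑ x, W t (fun w => Φ (∑ s ∈ range t, ω (pos τ x w s) (w s))) ≤
      ∑ y : S × Box, W t (fun w => Φ (F (pos τ' y w t).2 - F y.2)) := by
    rw [Fintype.sum_prod_type, Finset.mul_sum]
    refine Finset.sum_le_sum fun x _ => ?_
    have e1 : ∀ z : Box, (if (z : S × C → ℤ) ∈ Inner then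
        W t (fun w => Φ (∑ s ∈ range t, ω (pos τ x w s) (w s))) else 0) ≤
        W t (fun w => Φ (F (pos τ' (x, z) w t).2 - F z)) := by
      intro z
      split_ifs with hz
      · refine le_of_eq ?_
        congr 1
        funext w
        rw [(inner x z hz w t le_rfl).2, F_add, F_sum]
        simp only [F_mv, add_sub_cancel_left]
      · exact W_nonneg _ fun w => hΦ _
    refine le_trans (le_of_eq ?_) (Finset.sum_le_sum fun z _ => e1 z)
    rw [Finset.sum_coe_sort Box (fun z => if z ∈ Inner then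
        W t (fun w => Φ (∑ s ∈ range t, ω (pos τ x w s) (w s))) else 0)]
    rw [← Finset.sum_filter, Finset.filter_mem_eq_inter, Finset.inter_eq_right.2 hIB]
    simp
  have hR : ∑ y : S × Box, ∑ c, Φ (F (τ' c y).2 - F y.2) ≤
      (Box.card : ℝ) * ∑ x, ∑ c, Φ (ω x c) := by
    rw [Fintype.sum_prod_type, Finset.mul_sum]
    refine Finset.sum_le_sum fun x _ => ?_
    have e1 : ∀ z : Box, ∑ c, Φ (F (τ' c (x, z)).2 - F z) ≤ ∑ c, Φ (ω x c) := by
      intro z
      refine Finset.sum_le_sum fun c _ => ?_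
      by_cases hz : (z : S × C → ℤ) + mv x c ∈ Box
      · have e1 : τ' c (x, z) = (τ c x, ⟨_, hz⟩) := by simp only [τ', hz, dite_true]
        rw [e1]
        simp only [F_add, F_mv, add_sub_cancel_left, le_refl]
      · have e1 : τ' c (x, z) = (x, z) := by simp only [τ', hz, dite_false]
        rw [e1]
        simp only [sub_self, h0, hΦ]
    refine (Finset.sum_le_sum fun z _ => e1 z).trans (le_of_eq ?_)
    simp
  have hd : (0 : ℝ) ≤ Fintype.card C := by positivity
  set A := ∑ x, W t (fun w => Φ (∑ s ∈ range t, ω (pos τ x w s) (w s))) with hA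
  set B := ∑ x, ∑ c, Φ (ω x c) with hB
  have hB0 : 0 ≤ B := Finset.sum_nonneg fun x _ => Finset.sum_nonneg fun c _ => hΦ _
  have hnp : (0 : ℝ) < (n : ℝ) ^ Fintype.card (S × C) := by positivity
  have hc : 0 ≤ κ * t * (Fintype.card C : ℝ) ^ t := by positivity
  have h5 : (Fintype.card C : ℝ) * ((Inner.card : ℝ) * A) ≤
      κ * t * (Fintype.card C : ℝ) ^ t * ((Box.card : ℝ) * B) :=
    (mul_le_mul_of_nonneg_left hL hd).trans (key.trans (mul_le_mul_of_nonneg_left hR hc))
  rw [cardB, cardI] at h5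
  have h6 : κ * t * (Fintype.card C : ℝ) ^ t * (((n : ℝ) + 2 * t) ^ Fintype.card (S × C) * B) ≤
      κ * t * (Fintype.card C : ℝ) ^ t * ((2 * (n : ℝ) ^ Fintype.card (S × C)) * B) :=
    mul_le_mul_of_nonneg_left (mul_le_mul_of_nonneg_right hn hB0) hc
  have h7 := h5.trans h6
  refine le_of_mul_le_mul_left (a := (n : ℝ) ^ Fintype.card (S × C)) ?_ hnp
  linarith

end Crest.Agent.R140
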