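import Mathlib

/-!
Row 140 (S0191), part 3: a tower of cyclic covers.  Any two prescribed orders on the points of the
columns meeting at a vertex (one order for each side of a bipartite graph) are realised, at most
vertices of a suitable finite edge-coloured bipartite graph, by one global height function.
-/

set_option autoImplicit false

namespace Crest.Agent.R140

open Finset

theorem tower (C : Type) [Fintype C] (r : Bool → C → ℕ → ℕ)
    (hr : ∀ σ c, StrictMono (r σ c)) (n : ℕ) :
    ∀ (k0 q : ℕ), ∃ (S : Type) (_ : Fintype S) (_ : Nonempty S) (τ : C → S → S) (side : S → Bool)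
      (H : S → C → ℕ → ℕ) (bad : Finset S),
      (∀ c x, τ c (τ c x) = x) ∧ (∀ c x, side (τ c x) = !side x) ∧
      (∀ x c k, H (τ c x) c k = H x c k) ∧ q * bad.card ≤ Fintype.card S ∧
      ∀ x ∉ bad, ∀ c k c' k', k0 ≤ k → k < k0 + n → k0 ≤ k' → k' < k0 + n →
        r (side x) c k < r (side x) c' k' → H x c k < H x c' k' := by
  classical
  induction n with
  | zero =>
    intro k0 q
    refine ⟨Bool, inferInstance, inferInstance, fun _ x => !x, id, fun _ _ _ => 0, ∅, ?_, ?_, ?_, ?_, ?_⟩
    · intro c x; simp
    · intro c x; simp
    · intro x c k; rfl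
    · simp
    · intro x _ c k c' k' h1 h2; omega
  | succ n ih =>
    intro k0 q
    obtain ⟨S, _, _, τ, side, H, bad, hτ, hside, hH, hbad, hgood⟩ := ih (k0 + 1) (2 * q)
    let R : ℕ := Finset.univ.sup (fun p : Bool × C => r p.1 p.2 k0)
    have hR : ∀ σ c, r σ c k0 ≤ R := fun σ c =>
      Finset.le_sup (f := fun p : Bool × C => r p.1 p.2 k0) (Finset.mem_univ (σ, c))
    let B : ℕ := R + 3
    let E : ℕ → ℕ := fun h => B ^ (h + 1)
    let sset : S → C → Finset (C × ℕ) := fun x c =>
      (Finset.univ ×ˢ Finset.Ico (k0 + 1) (k0 + 1 + n)).filter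
        (fun p => r (side x) p.1 p.2 < r (side x) c k0)
    let m : S → C → ℕ := fun x c => (sset x c).sup (fun p => E (H x p.1 p.2))
    let base : S → C → ℕ := fun x c => r (side x) c k0 + 2 * m x c
    let D : S → C → ℕ → ℕ := fun x c k => if k = k0 then 0 else E (H x c k)
    let P : S → C → ℕ → ℕ := fun x c k => base x c + D x c k
    let Pmax : ℕ := (Finset.univ ×ˢ Finset.univ ×ˢ Finset.range (k0 + (n + 1))).sup
      (fun p : S × C × ℕ => P p.1 p.2.1 p.2.2)
    have hPmax : ∀ x c k, k < k0 + (n + 1) → P x c k ≤ Pmax := fun x c k hk =>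
      Finset.le_sup (f := fun p : S × C × ℕ => P p.1 p.2.1 p.2.2) (b := (x, c, k)) (by simp [hk])
    let M : ℕ := 2 * q * Pmax + 1
    have : NeZero M := ⟨by simp [M]⟩
    have hB2 : 2 ≤ B := by simp [B]
    have hE : ∀ h h', h < h' → B * E h ≤ E h' := by
      intro h h' hh
      simp only [E]
      rw [← pow_succ']
      exact Nat.pow_le_pow_right (by omega) (by omega)
    -- the main order computation
    have hbase : ∀ x ∉ bad, ∀ c c' k', k0 + 1 ≤ k' → k' < k0 + 1 + n →
        r (side x) c k0 < r (side x) c' k' → base x c < E (H x c' k') := by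
      intro x hx c c' k' h1 h2 h3
      have hm : m x c ≤ B ^ (H x c' k') := by
        refine Finset.sup_le fun p hp => ?_
        simp only [sset, Finset.mem_filter, Finset.mem_product, Finset.mem_univ, true_and,
          Finset.mem_Ico] at hp
        have := hgood x hx p.1 p.2 c' k' hp.1.1 hp.1.2 h1 h2 (hp.2.trans h3)
        exact Nat.pow_le_pow_right (by omega) this
      have h4 : 1 ≤ B ^ (H x c' k') := Nat.one_le_pow _ _ (by omega)
      have h5 := hR (side x) c
      simp only [base, E, pow_succ]
      have : B ^ (H x c' k') * B = B ^ (H x c' k') * R + 3 * B ^ (H x c' k') := by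
        simp only [B]; ring
      rw [this]
      have : R ≤ B ^ (H x c' k') * R := Nat.le_mul_of_pos_left _ h4
      omega
    have hP : ∀ x ∉ bad, ∀ c k c' k', k0 ≤ k → k < k0 + (n + 1) → k0 ≤ k' → k' < k0 + (n + 1) →
        r (side x) c k < r (side x) c' k' → P x c k < P x c' k' := by
      intro x hx c k c' k' h1 h2 h3 h4 h5
      by_cases hk : k = k0 <;> by_cases hk' : k' = k0
      · subst hk
        rw [hk'] at h5 ⊢
        simp only [P, D, if_true, base, add_zero]
        have : m x c ≤ m x c' := by
          refine Finset.sup_mono fun p hp => ?_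
          simp only [sset, Finset.mem_filter] at hp ⊢
          exact ⟨hp.1, hp.2.trans h5⟩
        omega
      · subst hk
        have := hbase x hx c c' k' (by omega) (by omega) h5
        simp only [P, D, if_true, hk', if_false, add_zero]
        omega
      · rw [hk'] at h5 ⊢
        have h6 := hbase x hx c c k (by omega) (by omega) (hr _ _ (by omega))
        have h7 : E (H x c k) ≤ m x c' := by
          refine Finset.le_sup (f := fun p : C × ℕ => E (H x p.1 p.2)) (b := (c, k)) ?_
          simp only [sset, Finset.mem_filter, Finset.mem_product, Finset.mem_univ, true_and,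
            Finset.mem_Ico]
          exact ⟨⟨by omega, by omega⟩, h5⟩
        have h8 : 2 * m x c' ≤ base x c' := by simp only [base]; omega
        simp only [P, D, if_true, hk, if_false, add_zero]
        omega
      · have h6 := hbase x hx c c k (by omega) (by omega) (hr _ _ (by omega))
        have h7 := hE _ _ (hgood x hx c k c' k' (by omega) (by omega) (by omega) (by omega) h5)
        have h8 : 2 * E (H x c k) ≤ B * E (H x c k) := Nat.mul_le_mul_right _ hB2
        simp only [P, D, hk, hk', if_false]
        omega
    refine ⟨S × ZMod M, inferInstance, inferInstance,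
      fun c y => (τ c y.1, y.2 + (base y.1 c : ZMod M) - (base (τ c y.1) c : ZMod M)),
      fun y => side y.1, fun y c k => (y.2 + (P y.1 c k : ZMod M)).val,
      Finset.univ.filter (fun y => y.1 ∈ bad ∨ M ≤ y.2.val + Pmax), ?_, ?_, ?_, ?_, ?_⟩
    · rintro c ⟨x, y⟩
      simp only [hτ, Prod.mk.injEq, true_and]
      ring
    · rintro c ⟨x, y⟩
      exact hside c x
    · rintro ⟨x, y⟩ c k
      simp only [P, D, hH]
      congr 1
      push_cast
      ring
    · have hsub : Finset.univ.filter (fun y : S × ZMod M => y.1 ∈ bad ∨ M ≤ y.2.val + Pmax) ⊆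
          (bad ×ˢ Finset.univ) ∪
            (Finset.univ ×ˢ Finset.univ.filter (fun y : ZMod M => M ≤ y.val + Pmax)) := by
        intro y hy
        simp only [Finset.mem_filter, Finset.mem_univ, true_and, Finset.mem_union,
          Finset.mem_product, and_true] at hy ⊢
        exact hy
      have hc2 : (Finset.univ.filter (fun y : ZMod M => M ≤ y.val + Pmax)).card ≤ Pmax := by
        have : (Finset.univ.filter (fun y : ZMod M => M ≤ y.val + Pmax)).card ≤
            (Finset.Ico (M - Pmax) M).card := by
          refine Finset.card_le_card_of_injOn (fun y => y.val) ?_ ?_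
          · intro y hy
            simp only [Finset.coe_filter, Finset.mem_univ, true_and, Set.mem_ofPred_eq] at hy
            have := ZMod.val_lt y
            simp only [Finset.coe_Ico, Set.mem_Ico]
            omega
          · intro y _ y' _ h
            exact ZMod.val_injective M h
        rw [Nat.card_Ico] at this
        omega
      have hc := (Finset.card_le_card hsub).trans (Finset.card_union_le _ _)
      simp only [Finset.card_product, Finset.card_univ, ZMod.card] at hc
      rw [Fintype.card_prod, ZMod.card]
      set b := bad.card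
      set s := Fintype.card S
      set u := (Finset.univ.filter (fun y : ZMod M => M ≤ y.val + Pmax)).card
      set N := (Finset.univ.filter
        (fun y : S × ZMod M => y.1 ∈ bad ∨ M ≤ y.2.val + Pmax)).card
      have h1 : 2 * q * b * M ≤ s * M := Nat.mul_le_mul_right _ hbad
      have h2 : 2 * q * u ≤ M := by
        have : 2 * q * u ≤ 2 * q * Pmax := Nat.mul_le_mul_left _ hc2
        simp only [M]; omega
      have h3 : s * (2 * q * u) ≤ s * M := Nat.mul_le_mul_left _ h2
      have h4 : 2 * q * N ≤ 2 * q * (b * M + s * u) := Nat.mul_le_mul_left _ hc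
      have h5 : 2 * q * (b * M + s * u) = 2 * q * b * M + s * (2 * q * u) := by ring
      have h6 : 2 * (q * N) ≤ 2 * (s * M) := by nlinarith
      omega
    · rintro ⟨x, y⟩ hx c k c' k' h1 h2 h3 h4 h5
      simp only [Finset.mem_filter, Finset.mem_univ, true_and, not_or, not_le] at hx
      have e : ∀ a, a ≤ Pmax → (y + (a : ZMod M)).val = y.val + a := by
        intro a ha
        rw [ZMod.val_add, ZMod.val_natCast, Nat.mod_eq_of_lt (a := a) (by omega),
          Nat.mod_eq_of_lt (by omega)]
      simp only
      rw [e _ (hPmax x c k h2), e _ (hPmax x c' k' h4)]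
      have := hP x hx.1 c k c' k' h1 h2 h3 h4 h5
      omega

end Crest.Agent.R140
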