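import Crest.Agent.R140.Defs
import Crest.Agent.R140.OneForm
import Crest.Agent.R140.Tower

/-!
Row 140 (S0191), part 5: the key inequality `N a ≤ 2 t N (a + shift a)` for a spreading invariant,
block invariant seminorm with Markov type, and the resulting contradiction.
-/

set_option autoImplicit false

namespace Crest.Agent.R140

open Finset Filter Topology

lemma sum_pos_eq {S C : Type} [Fintype S] (τ : C → S → S) (hτ : ∀ c x, τ c (τ c x) = x)
    (w : ℕ → C) (s : ℕ) : ∀ φ : S → ℝ, ∑ x, φ (pos τ x w s) = ∑ x, φ x := by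
  induction s with
  | zero => intro φ; rfl
  | succ s ih =>
    intro φ
    simp only [pos_succ]
    rw [ih (fun y => φ (τ (w s) y))]
    exact Function.Bijective.sum_comp (Function.Involutive.bijective (hτ (w s))) φ

lemma sum_W_pos {S C : Type} [Fintype S] [Fintype C] [Inhabited C] (τ : C → S → S)
    (hτ : ∀ c x, τ c (τ c x) = x) (t s : ℕ) (φ : S → ℝ) :
    ∑ x, W t (fun w => φ (pos τ x w s)) = (Fintype.card C : ℝ) ^ t * ∑ x, φ x := by
  rw [← W_sum, ← W_const]
  congr 1
  funext w
  exact sum_pos_eq τ hτ w s φ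

lemma W_backtrack {C : Type} [Fintype C] [Inhabited C] [DecidableEq C] (t : ℕ) :
    ∀ s < t, (Fintype.card C : ℝ) * W t (fun w : ℕ → C => if w s = w (s + 1) then (1 : ℝ) else 0) =
      (Fintype.card C : ℝ) ^ t := by
  induction t with
  | zero => intro s hs; omega
  | succ t ih =>
    intro s hs
    rw [W_succ]
    cases s with
    | zero =>
      simp only [scons_zero, zero_add, scons_succ]
      rw [← W_sum]
      simp only [Finset.sum_ite_eq', Finset.mem_univ, if_true]
      rw [W_const]; ring
    | succ s =>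
      rw [Finset.mul_sum]
      have e : ∀ c : C, (Fintype.card C : ℝ) * W t (fun w : ℕ → C =>
          if scons c w (s + 1) = scons c w (s + 1 + 1) then (1 : ℝ) else 0) =
          (Fintype.card C : ℝ) ^ t := fun c => ih s (by omega)
      simp only [e, Finset.sum_const, Finset.card_univ, nsmul_eq_mul]
      ring

/-- The order prescribed at a vertex of side `σ`. -/
def rk (d : ℕ) (σ : Bool) (c : Fin d) (k : ℕ) : ℕ :=
  ((k + σ.toNat) / 2) * (2 * d) + 2 * c + (k + σ.toNat) % 2

lemma rk_even {d : ℕ} {σ : Bool} (c : Fin d) {k i : ℕ} (h : k + σ.toNat = 2 * i) :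
    rk d σ c k = i * (2 * d) + 2 * c := by
  simp only [rk, h]
  have h1 : 2 * i / 2 = i := by omega
  have h2 : 2 * i % 2 = 0 := by omega
  rw [h1, h2, add_zero]

lemma rk_odd {d : ℕ} {σ : Bool} (c : Fin d) {k i : ℕ} (h : k + σ.toNat = 2 * i + 1) :
    rk d σ c k = i * (2 * d) + 2 * c + 1 := by
  simp only [rk, h]
  have h1 : (2 * i + 1) / 2 = i := by omega
  have h2 : (2 * i + 1) % 2 = 1 := by omega
  rw [h1, h2]

lemma rk_strictMono (d : ℕ) (σ : Bool) (c : Fin d) : StrictMono (rk d σ c) := by
  refine strictMono_nat_of_lt_succ fun k => ?_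
  have hc := c.2
  rcases Nat.even_or_odd' (k + σ.toNat) with ⟨i, hi | hi⟩
  · rw [rk_even c hi, rk_odd c (i := i) (by omega)]; omega
  · rw [rk_odd c hi, rk_even c (i := i + 1) (by omega), add_mul]; omega

lemma rk_up {d : ℕ} (σ : Bool) {c c' : Fin d} (_hcc : c ≠ c') {k : ℕ} (hk : 1 ≤ k)
    (hodd : (k + σ.toNat) % 2 = 1) :
    rk d σ c k < rk d σ c' (if c < c' then k - 1 else k + 1) := by
  have hc := c.2
  have hc' := c'.2
  obtain ⟨i, hi⟩ : ∃ i, k + σ.toNat = 2 * i + 1 := ⟨(k + σ.toNat) / 2, by omega⟩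
  rw [rk_odd c hi]
  split_ifs with h
  · rw [rk_even c' (i := i) (by omega)]
    have : (c : ℕ) < c' := h
    omega
  · rw [rk_even c' (i := i + 1) (by omega), add_mul]
    omega

lemma rk_down {d : ℕ} (σ : Bool) {c c' : Fin d} (hcc : c ≠ c') {k : ℕ} (hk : 1 ≤ k)
    (heven : (k + σ.toNat) % 2 = 0) :
    rk d σ c' (if c < c' then k - 1 else k + 1) < rk d σ c k := by
  have hc := c.2
  have hc' := c'.2
  obtain ⟨i, hi⟩ : ∃ i, k + σ.toNat = 2 * (i + 1) := ⟨(k + σ.toNat) / 2 - 1, by omega⟩
  rw [rk_even c hi]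
  split_ifs with h
  · rw [rk_odd c' (i := i) (by omega), add_mul]
    omega
  · rw [rk_odd c' (i := i + 1) (by omega)]
    have h1 : ¬ (c : ℕ) < c' := h
    have h2 : (c : ℕ) ≠ c' := fun e => hcc (Fin.ext e)
    omega

/-- Shift to the right by `o`. -/
noncomputable def sh (o : ℕ) (a : c00) : c00 := Finsupp.mapDomain (fun i => i + o) a

lemma mem_support_sh {o m : ℕ} {a : c00} (ha : ∀ i ∈ a.support, i < m) {n : ℕ}
    (hn : n ∈ (sh o a).support) : n < m + o := by
  classical
  have h4 := Finsupp.mapDomain_support hn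
  simp only [Finset.mem_image] at h4
  obtain ⟨i, hi, rfl⟩ := h4
  have := ha i hi
  omega

section
variable {κ p θ : ℝ} {N : c00 → ℝ}

lemma alt_shift (h : Good κ p θ ⊤ N) (hs : Spread N) (a : c00) (o i : ℕ) :
    N (((-1 : ℝ) ^ (o + i)) • sh (o + i) a - ((-1 : ℝ) ^ o) • sh o a) ≤ i * N (a + sh 1 a) := by
  induction i with
  | zero => simp [h.zero]
  | succ i ih =>
    have e1 : ((-1 : ℝ) ^ (o + (i + 1))) • sh (o + (i + 1)) a - ((-1 : ℝ) ^ o) • sh o a =
        ((-1 : ℝ) ^ (o + (i + 1))) • Finsupp.mapDomain (fun j => j + (o + i)) (a + sh 1 a) +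
          (((-1 : ℝ) ^ (o + i)) • sh (o + i) a - ((-1 : ℝ) ^ o) • sh o a) := by
      rw [Finsupp.mapDomain_add]
      have e2 : Finsupp.mapDomain (fun j => j + (o + i)) (sh 1 a) = sh (o + (i + 1)) a := by
        simp only [sh]
        rw [← Finsupp.mapDomain_comp]
        congr 1
        funext j; simp only [Function.comp]; omega
      rw [e2, smul_add]
      have e3 : ((-1 : ℝ) ^ (o + (i + 1))) = - (-1) ^ (o + i) := by
        rw [← add_assoc, pow_succ]; ring
      simp only [sh]
      rw [e3, neg_smul, neg_smul]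
      abel
    rw [e1]
    refine (h.add_le _ _).trans ?_
    rw [h.smul, hs _ _ (fun x _ y _ hxy => by simpa using hxy)]
    simp only [abs_pow, abs_neg, abs_one, one_pow, one_mul]
    push_cast
    linarith

lemma alt_shift' (h : Good κ p θ ⊤ N) (hs : Spread N) (a : c00) {t o : ℕ} (ho : o ≤ 2 * t) :
    N (((-1 : ℝ) ^ t) • sh t a - ((-1 : ℝ) ^ o) • sh o a) ≤ t * N (a + sh 1 a) := by
  have he := h.nonneg (a + sh 1 a)
  rcases le_total o t with h1 | h1
  · obtain ⟨i, rfl⟩ := Nat.exists_eq_add_of_le h1
    refine (alt_shift h hs a o i).trans (mul_le_mul_of_nonneg_right ?_ he)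
    push_cast
    have : (0 : ℝ) ≤ o := by positivity
    linarith
  · obtain ⟨i, rfl⟩ := Nat.exists_eq_add_of_le h1
    rw [← h.neg, neg_sub]
    refine (alt_shift h hs a t i).trans (mul_le_mul_of_nonneg_right ?_ he)
    have : i ≤ t := by omega
    exact_mod_cast this

/-- Along a good path the sum of the one-form is large. -/
lemma good_path (h : Good κ p θ ⊤ N) (hs : Spread N) {t : ℕ} (ht : 1 ≤ t)
    (hT : ∀ a, N (blk t a) = N a) (a : c00) {m : ℕ} (ha : ∀ i ∈ a.support, i < m)
    {d : ℕ} {S : Type} (τ : Fin d → S → S) (side : S → Bool) (H : S → Fin d → ℕ → ℕ)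
    (bad : Finset S) (hside : ∀ c x, side (τ c x) = !side x)
    (hH : ∀ x c k, H (τ c x) c k = H x c k)
    (hgood : ∀ x ∉ bad, ∀ c k c' k', k < m + 2 * t + 1 → k' < m + 2 * t + 1 →
        rk d (side x) c k < rk d (side x) c' k' → H x c k < H x c' k')
    (x : S) (w : ℕ → Fin d) (h1 : ∀ s < t, pos τ x w s ∉ bad) (h2 : ∀ s < t, w s ≠ w (s + 1)) :
    t * N a ≤ N (∑ s ∈ range t, ((-1 : ℝ) ^ (side (pos τ x w s)).toNat) •
        Finsupp.mapDomain (H (pos τ x w s) (w s)) (sh t a)) + t * (t * N (a + sh 1 a)) := by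
  classical
  let o : ℕ → ℕ := fun s => Nat.rec t (fun s y => if w s < w (s + 1) then y - 1 else y + 1) s
  have o_succ : ∀ s, o (s + 1) = if w s < w (s + 1) then o s - 1 else o s + 1 := fun s => rfl
  have o_bd : ∀ s ≤ t, t ≤ o s + s ∧ o s ≤ t + s ∧ (o s + s + t) % 2 = 0 := by
    intro s
    induction s with
    | zero => intro _; simp only [o]; simp; omega
    | succ s ih =>
      intro hs
      have := ih (by omega)
      rw [o_succ]
      split_ifs <;> omega
  have side_par : ∀ s, ((side (pos τ x w s)).toNat + s + (side x).toNat) % 2 = 0 := by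
    intro s
    induction s with
    | zero => simp only [pos_zero]; omega
    | succ s ih =>
      rw [pos_succ, hside]
      revert ih
      cases side (pos τ x w s) <;> simp <;> omega
  have col : ∀ s < t, StrictMonoOn (H (pos τ x w s) (w s)) (Set.Iio (m + 2 * t + 1)) := by
    intro s hs k hk k' hk' hkk
    exact hgood _ (h1 s hs) _ _ _ _ hk hk' (rk_strictMono _ _ _ hkk)
  let q : ℕ → ℕ → ℕ := fun j s => H (pos τ x w s) (w s) (j + o s)
  have qc : ∀ j s, j + 1 < m → s < t → q j s < q (j + 1) s := by
    intro j s hj hs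
    have := o_bd s hs.le
    exact col s hs (by simp only [Set.mem_Iio]; omega) (by simp only [Set.mem_Iio]; omega)
      (by omega)
  have qshift : ∀ j s, s + 1 < t → j + o (s + 1) =
      if w s < w (s + 1) then j + o s - 1 else j + o s + 1 := by
    intro j s hs
    have := o_bd s (by omega)
    rw [o_succ]
    split_ifs <;> omega
  have qa : ∀ j s, j < m → s + 1 < t → (j + t + (side x).toNat) % 2 = 0 →
      q j s < q j (s + 1) := by
    intro j s hj hs hpar
    have b1 := o_bd s (by omega)
    have b2 := o_bd (s + 1) (by omega)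
    have b3 := side_par (s + 1)
    simp only [q]
    rw [← hH _ (w s) (j + o s), ← pos_succ τ x w s]
    refine hgood _ (h1 (s + 1) hs) _ _ _ _ (by omega) (by omega) ?_
    rw [qshift j s hs]
    exact rk_up _ (h2 s (by omega)) (by omega) (by omega)
  have qb : ∀ j s, j < m → s + 1 < t → (j + t + (side x).toNat) % 2 = 1 →
      q j (s + 1) < q j s := by
    intro j s hj hs hpar
    have b1 := o_bd s (by omega)
    have b2 := o_bd (s + 1) (by omega)
    have b3 := side_par (s + 1)
    simp only [q]
    rw [← hH (pos τ x w s) (w s) (j + o s), ← pos_succ τ x w s]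
    refine hgood _ (h1 (s + 1) hs) _ _ _ _ (by omega) (by omega) ?_
    rw [qshift j s hs]
    exact rk_down _ (h2 s (by omega)) (by omega) (by omega)
  let π : ℕ → ℕ → ℕ := fun j s => if (j + t + (side x).toNat) % 2 = 0 then s else t - 1 - s
  let g : ℕ → ℕ := fun n => q (n / t) (π (n / t) (n % t))
  have g_eq : ∀ j s, s < t → g (t * j + s) = q j (π j s) := by
    intro j s hs
    have e1 : (t * j + s) / t = j := by
      rw [Nat.mul_add_div (by omega), Nat.div_eq_of_lt hs, add_zero]
    have e2 : (t * j + s) % t = s := by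
      rw [Nat.mul_add_mod, Nat.mod_eq_of_lt hs]
    simp only [g, e1, e2]
  have g_mono : StrictMonoOn g (Set.Iio (t * m)) := by
    refine strictMonoOn_Iio_of_succ fun n hn => ?_
    obtain ⟨j, s, hs, rfl⟩ : ∃ j s, s < t ∧ n = t * j + s :=
      ⟨n / t, n % t, Nat.mod_lt _ (by omega), (Nat.div_add_mod n t).symm⟩
    have hj : j < m := by
      by_contra hj
      have : t * m ≤ t * j := Nat.mul_le_mul_left _ (by omega)
      omega
    rw [g_eq j s hs]
    rcases Nat.lt_or_ge (s + 1) t with h3 | h3
    · rw [add_assoc, g_eq j (s + 1) h3]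
      simp only [π]
      split_ifs with hpar
      · exact qa j s hj h3 hpar
      · have e : t - 1 - s = (t - 1 - (s + 1)) + 1 := by omega
        rw [e]
        exact qb j _ hj (by omega) (by omega)
    · have e : t * j + s + 1 = t * (j + 1) + 0 := by rw [mul_add]; omega
      have hj' : j + 1 < m := by
        by_contra hj'
        have : t * m ≤ t * (j + 1) := Nat.mul_le_mul_left _ (by omega)
        omega
      rw [e, g_eq (j + 1) 0 (by omega)]
      have e2 : π (j + 1) 0 = π j s := by
        simp only [π]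
        split_ifs <;> omega
      rw [e2]
      refine qc j _ hj' ?_
      simp only [π]
      split_ifs <;> omega
  have main_eq : ∑ s ∈ range t, Finsupp.mapDomain (fun j => q j s) a =
      (t : ℝ) • Finsupp.mapDomain g (blk t a) := by
    have ht0 : (t : ℝ) ≠ 0 := by positivity
    rw [blk_apply, Finsupp.mapDomain_smul, smul_smul, mul_inv_cancel₀ ht0, one_smul,
      Finsupp.mapDomain_finsetSum]
    have e1 : ∀ s ∈ range t, Finsupp.mapDomain g (Finsupp.mapDomain (fun i => t * i + s) a) =
        Finsupp.mapDomain (fun j => q j (π j s)) a := by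
      intro s hs
      rw [← Finsupp.mapDomain_comp]
      congr 1
      funext j
      exact g_eq j s (Finset.mem_range.1 hs)
    rw [Finset.sum_congr rfl e1]
    simp only [Finsupp.mapDomain, Finsupp.sum]
    rw [Finset.sum_comm, Finset.sum_comm (s := range t)]
    refine Finset.sum_congr rfl fun j _ => ?_
    simp only [π]
    split_ifs
    · rfl
    · exact (Finset.sum_range_reflect (fun s => Finsupp.single (q j s) (a j)) t).symm
  have main_N : N (∑ s ∈ range t, Finsupp.mapDomain (fun j => q j s) a) = t * N a := by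
    rw [main_eq, h.smul, hs, hT, abs_of_nonneg (by positivity)]
    refine g_mono.mono fun n hn => ?_
    obtain ⟨i, hi, s, hs, rfl⟩ := mem_support_blk hn
    have h3 := ha i hi
    have : t * (i + 1) ≤ t * m := Nat.mul_le_mul_left _ h3
    simp only [Set.mem_Iio]
    rw [mul_add] at this
    omega
  let err : ℕ → c00 := fun s => Finsupp.mapDomain (H (pos τ x w s) (w s))
    (((-1 : ℝ) ^ (side x).toNat) • sh (o s) a - ((-1 : ℝ) ^ (side (pos τ x w s)).toNat) • sh t a)
  have err_N : ∀ s ∈ range t, N (err s) ≤ t * N (a + sh 1 a) := by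
    intro s hs'
    have hs'' := Finset.mem_range.1 hs'
    have b1 := o_bd s hs''.le
    have b3 := side_par s
    simp only [err]
    rw [hs]
    · have e : ((-1 : ℝ) ^ (side x).toNat) • sh (o s) a -
          ((-1 : ℝ) ^ (side (pos τ x w s)).toNat) • sh t a =
          (-((-1 : ℝ) ^ ((side (pos τ x w s)).toNat + t))) •
            (((-1 : ℝ) ^ t) • sh t a - ((-1 : ℝ) ^ (o s)) • sh (o s) a) := by
        rw [smul_sub, smul_smul, smul_smul]
        have e1 : (-((-1 : ℝ) ^ ((side (pos τ x w s)).toNat + t))) * (-1) ^ t =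
            - (-1) ^ (side (pos τ x w s)).toNat := by
          rw [neg_mul, ← pow_add, add_assoc, ← two_mul, pow_add, pow_mul]; simp
        have e2 : (-((-1 : ℝ) ^ ((side (pos τ x w s)).toNat + t))) * (-1) ^ (o s) =
            - (-1) ^ (side x).toNat := by
          rw [neg_mul, ← pow_add, neg_one_pow_eq_pow_mod_two,
            neg_one_pow_eq_pow_mod_two (side x).toNat]
          congr 2
          omega
        rw [e1, e2, neg_smul, neg_smul]
        abel
      rw [e, h.smul]
      simp only [abs_pow, abs_neg, abs_one, one_pow, one_mul]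
      exact alt_shift' h hs a (by omega)
    · refine (col s hs'').mono fun n hn => ?_
      have h5 := Finsupp.support_sub hn
      simp only [Set.mem_Iio]
      rcases Finset.mem_union.1 h5 with h6 | h6
      · have := mem_support_sh ha (Finsupp.support_smul h6); omega
      · have := mem_support_sh ha (Finsupp.support_smul h6); omega
  have decomp : ((-1 : ℝ) ^ (side x).toNat) •
      ∑ s ∈ range t, Finsupp.mapDomain (fun j => q j s) a =
      (∑ s ∈ range t, ((-1 : ℝ) ^ (side (pos τ x w s)).toNat) •
        Finsupp.mapDomain (H (pos τ x w s) (w s)) (sh t a)) + ∑ s ∈ range t, err s := by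
    rw [Finset.smul_sum, ← Finset.sum_add_distrib]
    refine Finset.sum_congr rfl fun s _ => ?_
    simp only [err]
    rw [← Finsupp.lmapDomain_apply ℝ ℝ _ (_ - _), map_sub, map_smul, map_smul]
    simp only [Finsupp.lmapDomain_apply, add_sub_cancel, sh]
    rw [← Finsupp.mapDomain_comp]
    rfl
  have h7 := h.add_le (∑ s ∈ range t, ((-1 : ℝ) ^ (side (pos τ x w s)).toNat) •
        Finsupp.mapDomain (H (pos τ x w s) (w s)) (sh t a)) (∑ s ∈ range t, err s)
  rw [← decomp, h.smul, main_N] at h7
  simp only [abs_pow, abs_neg, abs_one, one_pow, one_mul] at h7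
  have h8 := (h.sum_le _ _).trans (Finset.sum_le_sum err_N)
  simp only [Finset.sum_const, Finset.card_range, nsmul_eq_mul] at h8
  linarith

end

end Crest.Agent.R140
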