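import Crest.Agent.R140.Key

/-!
Row 140 (S0191), part 6: the key inequality and the contradiction.
-/

set_option autoImplicit false

namespace Crest.Agent.R140

open Finset Filter Topology

variable {κ p θ : ℝ} {N : c00 → ℝ}

theorem key_ineq (h : Good κ p θ ⊤ N) (hκ : 0 ≤ κ) (hp : 0 < p) (hs : Spread N) {t : ℕ}
    (ht : 1 ≤ t) (hT : ∀ a, N (blk t a) = N a) (htκ : 4 * κ * t < ((t : ℝ) / 2) ^ p) (a : c00) :
    N a ≤ 2 * t * N (a + sh 1 a) := by
  classical
  by_contra hcon
  push Not at hcon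
  set b := N a with hb
  set e := N (a + sh 1 a) with he
  have he0 : 0 ≤ e := h.nonneg _
  have ht0 : (0 : ℝ) < t := by exact_mod_cast ht
  have hb0 : 0 < b := lt_of_le_of_lt (by positivity) hcon
  obtain ⟨m, hm⟩ : ∃ m, ∀ i ∈ a.support, i < m :=
    ⟨a.support.sup id + 1, fun i hi => Nat.lt_succ_of_le (Finset.le_sup (f := id) hi)⟩
  let d : ℕ := 4 * t
  have : NeZero d := ⟨by simp only [d]; omega⟩
  obtain ⟨S, _, _, τ, side, H, bad, hτ, hside, hH, hbad, hgood⟩ :=
    tower (Fin d) (rk d) (rk_strictMono d) (m + 2 * t + 1) 0 (4 * t)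
  let ω : S → Fin d → c00 := fun x c =>
    if StrictMonoOn (H x c) (Set.Iio (m + 2 * t + 1)) then
      ((-1 : ℝ) ^ (side x).toNat) • Finsupp.mapDomain (H x c) (sh t a) else 0
  have hω : ∀ x c, ω (τ c x) c = - ω x c := by
    intro x c
    have e1 : H (τ c x) c = H x c := funext fun k => hH x c k
    simp only [ω, e1, hside]
    split_ifs
    · cases side x <;> simp
    · simp
  have hωN : ∀ x c, N (ω x c) ≤ b := by
    intro x c
    simp only [ω]
    split_ifs with hc
    · rw [h.smul, hs _ _ (hc.mono fun n hn => ?_)]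
      · simp only [abs_pow, abs_neg, abs_one, one_pow, one_mul, sh]
        rw [hs _ _ (fun x _ y _ hxy => by simpa using hxy)]
      · have := mem_support_sh hm hn
        simp only [Set.mem_Iio]; omega
    · rw [h.zero]; exact hb0.le
  have key := h.mt.oneForm hκ (by simp only [h.zero]; exact Real.zero_rpow hp.ne')
    (fun v => Real.rpow_nonneg (h.nonneg v) p) S (Fin d) τ hτ ω hω t ht
  set A : ℝ := (t / 2 * b) ^ p with hA
  have hA0 : 0 ≤ A := Real.rpow_nonneg (by positivity) p
  have hpt : ∀ (x : S) (w : ℕ → Fin d),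
      A * (1 - ∑ s ∈ range t, (if pos τ x w s ∈ bad then (1 : ℝ) else 0) -
        ∑ s ∈ range t, (if w s = w (s + 1) then (1 : ℝ) else 0)) ≤
      N (∑ s ∈ range t, ω (pos τ x w s) (w s)) ^ p := by
    intro x w
    have n1 : 0 ≤ ∑ s ∈ range t, (if pos τ x w s ∈ bad then (1 : ℝ) else 0) :=
      Finset.sum_nonneg fun s _ => by split_ifs <;> norm_num
    have n2 : 0 ≤ ∑ s ∈ range t, (if w s = w (s + 1) then (1 : ℝ) else 0) :=
      Finset.sum_nonneg fun s _ => by split_ifs <;> norm_num
    have n3 : 0 ≤ N (∑ s ∈ range t, ω (pos τ x w s) (w s)) ^ p := Real.rpow_nonneg (h.nonneg _) p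
    by_cases h1 : ∀ s < t, pos τ x w s ∉ bad
    · by_cases h2 : ∀ s < t, w s ≠ w (s + 1)
      · have h3 := good_path h hs ht hT a hm τ side H bad hside hH
          (fun x hx c k c' k' hk hk' => hgood x hx c k c' k' (by omega) (by omega) (by omega)
            (by omega)) x w h1 h2
        have e2 : ∑ s ∈ range t, ω (pos τ x w s) (w s) =
            ∑ s ∈ range t, ((-1 : ℝ) ^ (side (pos τ x w s)).toNat) •
              Finsupp.mapDomain (H (pos τ x w s) (w s)) (sh t a) := by
          refine Finset.sum_congr rfl fun s hs' => ?_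
          simp only [ω]
          rw [if_pos]
          intro k hk k' hk' hkk
          simp only [Set.mem_Iio] at hk hk'
          exact hgood _ (h1 s (Finset.mem_range.1 hs')) _ _ _ _ (by omega) (by omega) (by omega)
            (by omega) (rk_strictMono _ _ _ hkk)
        rw [← e2, ← hb, ← he] at h3
        have h4 : t / 2 * b ≤ N (∑ s ∈ range t, ω (pos τ x w s) (w s)) := by nlinarith
        have h5 : A ≤ N (∑ s ∈ range t, ω (pos τ x w s) (w s)) ^ p :=
          Real.rpow_le_rpow (by positivity) h4 hp.le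
        nlinarith
      · push Not at h2
        obtain ⟨s, hs1, hs2⟩ := h2
        have : (1 : ℝ) ≤ ∑ s ∈ range t, (if w s = w (s + 1) then (1 : ℝ) else 0) := by
          refine le_trans ?_ (Finset.single_le_sum (f := fun s => if w s = w (s + 1) then (1 : ℝ)
            else 0) (fun s _ => by split_ifs <;> norm_num) (Finset.mem_range.2 hs1))
          simp [hs2]
        nlinarith
    · push Not at h1
      obtain ⟨s, hs1, hs2⟩ := h1
      have : (1 : ℝ) ≤ ∑ s ∈ range t, (if pos τ x w s ∈ bad then (1 : ℝ) else 0) := by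
        refine le_trans ?_ (Finset.single_le_sum (f := fun s => if pos τ x w s ∈ bad then (1 : ℝ)
          else 0) (fun s _ => by split_ifs <;> norm_num) (Finset.mem_range.2 hs1))
        simp [hs2]
      nlinarith
  have hcard : (Fintype.card (Fin d) : ℝ) = 4 * t := by simp [d]
  set D : ℝ := (Fintype.card (Fin d) : ℝ) with hD
  set n : ℝ := (Fintype.card S : ℝ) with hn
  have hn0 : 0 < n := by
    have : 0 < Fintype.card S := Fintype.card_pos
    rw [hn]; exact_mod_cast this
  have hD0 : 0 < D := by rw [hcard]; positivity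
  have hL : ∑ x, W t (fun w : ℕ → Fin d =>
      A * (1 - ∑ s ∈ range t, (if pos τ x w s ∈ bad then (1 : ℝ) else 0) -
        ∑ s ∈ range t, (if w s = w (s + 1) then (1 : ℝ) else 0))) ≤
      ∑ x, W t (fun w => N (∑ s ∈ range t, ω (pos τ x w s) (w s)) ^ p) :=
    Finset.sum_le_sum fun x _ => W_mono t (hpt x)
  simp only [W_mul, W_sub, W_const, W_sum, ← Finset.mul_sum, Finset.sum_sub_distrib] at hL
  rw [Finset.sum_comm] at hL
  have e3 : ∀ s ∈ range t, ∑ x, W t (fun w : ℕ → Fin d =>
      if pos τ x w s ∈ bad then (1 : ℝ) else 0) = D ^ t * bad.card := by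
    intro s _
    rw [sum_W_pos τ hτ t s (fun y => if y ∈ bad then (1 : ℝ) else 0)]
    simp [hD]
  have e4 : ∀ s ∈ range t, W t (fun w : ℕ → Fin d => if w s = w (s + 1) then (1 : ℝ) else 0) =
      D ^ t / D := by
    intro s hs'
    rw [← W_backtrack t s (Finset.mem_range.1 hs'), ← hD]
    field_simp
  rw [Finset.sum_congr rfl e3, Finset.sum_congr rfl e4] at hL
  simp only [Finset.sum_const, Finset.card_range, Finset.card_univ, nsmul_eq_mul, mul_one] at hL
  rw [← hn, ← hD] at hL
  have hR : ∑ x, ∑ c, N (ω x c) ^ p ≤ n * (D * b ^ p) := by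
    refine (Finset.sum_le_sum fun x _ => Finset.sum_le_sum fun c _ =>
      Real.rpow_le_rpow (h.nonneg _) (hωN x c) hp.le).trans (le_of_eq ?_)
    simp only [Finset.sum_const, Finset.card_univ, nsmul_eq_mul, hn, hD]
  have hbad' : 4 * t * (bad.card : ℝ) ≤ n := by rw [hn]; exact_mod_cast hbad
  have hDt : 0 < D ^ t := by positivity
  have e5 : (t : ℝ) * (D ^ t / D) = D ^ t / 4 := by rw [hcard]; field_simp
  rw [e5] at hL
  have h6 : A * (n * D ^ t / 2) ≤
      A * (D ^ t * n - t * (D ^ t * bad.card) - n * (D ^ t / 4)) := by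
    refine mul_le_mul_of_nonneg_left ?_ hA0
    nlinarith
  have h7 : D * (A * (n * D ^ t / 2)) ≤ 2 * κ * t * D ^ t * (n * (D * b ^ p)) :=
    (mul_le_mul_of_nonneg_left (h6.trans hL) hD0.le).trans
      (key.trans (mul_le_mul_of_nonneg_left hR (by positivity)))
  have h8 : A ≤ 4 * κ * t * b ^ p := by
    refine le_of_mul_le_mul_left (a := D * n * D ^ t / 2) ?_ (by positivity)
    linarith
  rw [hA, Real.mul_rpow (by positivity) hb0.le] at h8
  have h9 : 0 < b ^ p := Real.rpow_pos_of_pos hb0 p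
  nlinarith

/-- The alternating vector of length `n`. -/
noncomputable def altv (n : ℕ) : c00 := ∑ i ∈ range n, Finsupp.single i ((-1 : ℝ) ^ i)

lemma sh_single (o i : ℕ) (x : ℝ) : sh o (Finsupp.single i x) = Finsupp.single (i + o) x := by
  simp [sh]

lemma sh_add (o : ℕ) (u v : c00) : sh o (u + v) = sh o u + sh o v := by
  simp [sh, Finsupp.mapDomain_add]

lemma sh_smul (o : ℕ) (c : ℝ) (u : c00) : sh o (c • u) = c • sh o u := by
  simp [sh, Finsupp.mapDomain_smul]

lemma sh_sum (o n : ℕ) (f : ℕ → c00) : sh o (∑ i ∈ range n, f i) = ∑ i ∈ range n, sh o (f i) := by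
  simp [sh, Finsupp.mapDomain_finsetSum]

lemma sh_sh (o o' : ℕ) (u : c00) : sh o (sh o' u) = sh o' (sh o u) := by
  simp only [sh, ← Finsupp.mapDomain_comp]
  congr 1
  funext i
  simp only [Function.comp]; omega

lemma altv_add_sh (n : ℕ) :
    altv n + sh 1 (altv n) = Finsupp.single 0 1 - Finsupp.single n ((-1 : ℝ) ^ n) := by
  induction n with
  | zero => simp [altv, sh]
  | succ n ih =>
    have e : altv (n + 1) = altv n + Finsupp.single n ((-1 : ℝ) ^ n) := by
      simp [altv, Finset.sum_range_succ]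
    rw [e, sh_add, sh_single, add_add_add_comm, ih, pow_succ, mul_neg, mul_one, Finsupp.single_neg]
    abel

lemma tail_altv (k n : ℕ) :
    tail k (altv n) = if k ≤ n then ((-1 : ℝ) ^ k - (-1) ^ n) / 2 else 0 := by
  induction n with
  | zero =>
    simp only [altv, Finset.range_zero, Finset.sum_empty, map_zero, nonpos_iff_eq_zero]
    split_ifs with h
    · simp [h]
    · rfl
  | succ n ih =>
    have e : altv (n + 1) = altv n + Finsupp.single n ((-1 : ℝ) ^ n) := by
      simp [altv, Finset.sum_range_succ]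
    rw [e, map_add, ih, tail_single]
    by_cases h1 : k ≤ n
    · rw [if_pos h1, if_pos h1, if_pos (by omega), pow_succ]; ring
    · rw [if_neg h1, if_neg h1]
      split_ifs with h2
      · have : k = n + 1 := by omega
        simp [this]
      · simp

theorem no_good (h : Good κ p θ ⊤ N) (hκ : 0 ≤ κ) (hp : 0 < p) (hθ : 0 < θ) (hs : Spread N)
    {t : ℕ} (ht : 1 ≤ t) (hT : ∀ a, N (blk t a) = N a)
    (htκ : 4 * κ * t < ((t : ℝ) / 2) ^ p) : False := by
  have ht0 : (0 : ℝ) < t := by exact_mod_cast ht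
  have hsh : ∀ o u, N (sh o u) = N u := fun o u =>
    hs _ _ (fun x _ y _ hxy => by simpa using hxy)
  have h1 : ∀ n, N (altv n) ≤ 4 * t := by
    intro n
    have h2 := key_ineq h hκ hp hs ht hT htκ (altv n)
    rw [altv_add_sh, sub_eq_add_neg] at h2
    have h3 := h.add_le (Finsupp.single 0 1) (-Finsupp.single n ((-1 : ℝ) ^ n))
    rw [h.neg] at h3
    have h4 := h.single_le 0
    have h5 := h.single_le' n ((-1 : ℝ) ^ n)
    simp only [abs_pow, abs_neg, abs_one, one_pow] at h5
    nlinarith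
  obtain ⟨v, hv⟩ := exists_nat_gt (16 * (t : ℝ) ^ 2 / θ)
  let a : c00 := ∑ j ∈ range (2 * v), ((-1 : ℝ) ^ j) • sh j (altv (2 * v))
  have e1 : a + sh 1 a = altv (2 * v) + (-1 : ℝ) • sh (2 * v) (altv (2 * v)) := by
    simp only [a]
    rw [sh_sum, ← Finset.sum_add_distrib]
    have : ∀ j ∈ range (2 * v), ((-1 : ℝ) ^ j) • sh j (altv (2 * v)) +
        sh 1 (((-1 : ℝ) ^ j) • sh j (altv (2 * v))) =
        Finsupp.single j ((-1 : ℝ) ^ j) +
          (-1 : ℝ) • sh (2 * v) (Finsupp.single j ((-1 : ℝ) ^ j)) := by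
      intro j _
      rw [sh_smul, sh_sh, ← smul_add, ← sh_add, altv_add_sh, sub_eq_add_neg, ← Finsupp.single_neg,
        sh_add, sh_single, sh_single, sh_single]
      simp [add_comm, Finsupp.single_neg]
    rw [Finset.sum_congr rfl this, Finset.sum_add_distrib, ← Finset.smul_sum, ← sh_sum]
    rfl
  have h2 := key_ineq h hκ hp hs ht hT htκ a
  have h3 : N (a + sh 1 a) ≤ 8 * t := by
    rw [e1]
    refine (h.add_le _ _).trans ?_
    rw [h.smul, hsh]
    have := h1 (2 * v)
    simp only [abs_neg, abs_one, one_mul]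
    linarith
  have h4 : tail (2 * v) a = v := by
    simp only [a, map_sum, map_smul, smul_eq_mul]
    have : ∀ j ∈ range (2 * v), (-1 : ℝ) ^ j * tail (2 * v) (sh j (altv (2 * v))) =
        (1 - (-1) ^ j) / 2 := by
      intro j hj
      have hj' := Finset.mem_range.1 hj
      simp only [sh]
      rw [tail_mapDomain (2 * v - j) (2 * v) _ (fun i => by omega), tail_altv, if_pos (by omega)]
      have e2 : (-1 : ℝ) ^ j * (-1) ^ (2 * v - j) = 1 := by
        rw [← pow_add, show j + (2 * v - j) = 2 * v by omega, pow_mul]; simp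
      have e3 : (-1 : ℝ) ^ (2 * v) = 1 := by rw [pow_mul]; simp
      rw [e3]
      linarith
    rw [Finset.sum_congr rfl this, ← Finset.sum_div, Finset.sum_sub_distrib, neg_one_geom_sum]
    simp
  have h5 := h.lower (2 * v) a (ENat.natCast_lt_top _)
  rw [h4, abs_of_nonneg (by positivity)] at h5
  rw [div_lt_iff₀ hθ] at hv
  nlinarith

end Crest.Agent.R140
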