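import Crest.Agent.R140.Defs

/-!
Row 140 (S0191), part 7: ultralimits, a spreading model and the block-average limit.
-/

set_option autoImplicit false

namespace Crest.Agent.R140

open Finset Filter Topology

lemma ulim_exists (f : ℕ → ℝ) {M : ℝ} (hf : ∀ n, f n ∈ Set.Icc 0 M) :
    Tendsto f (hyperfilter ℕ : Filter ℕ) (𝓝 (limUnder (hyperfilter ℕ : Filter ℕ) f)) := by
  obtain ⟨x, -, hx⟩ := isCompact_Icc.ultrafilter_le_nhds ((hyperfilter ℕ).map f)
    (by
      rw [Ultrafilter.coe_map, le_principal_iff, Filter.mem_map]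
      exact Eventually.of_forall hf)
  exact tendsto_nhds_limUnder ⟨x, hx⟩

variable {κ p θ : ℝ}

theorem exists_good_top (hp : 0 ≤ p) (h : ∀ n : ℕ, ∃ N, Good κ p θ n N) :
    ∃ N, Good κ p θ ⊤ N := by
  choose Ns hNs using h
  refine ⟨fun a => limUnder (hyperfilter ℕ : Filter ℕ) (fun n => Ns n a), ?_⟩
  refine Good.of_tendsto hp (F := (hyperfilter ℕ : Filter ℕ)) (Ns := Ns) (ns := fun n => n)
    (Eventually.of_forall hNs) (fun k _ => ?_) (fun a => ?_)
  · refine Nat.hyperfilter_le_atTop ?_
    filter_upwards [eventually_gt_atTop k] with n hn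
    exact_mod_cast hn
  · exact ulim_exists _ (fun n => ⟨(hNs n).nonneg a, (hNs n).le_l1 a⟩)

/-- Iterated ultralimit. -/
noncomputable def Lam (N : c00 → ℝ) : List ℝ → c00 → ℝ
  | [], v => N v
  | a :: l, v => limUnder (hyperfilter ℕ : Filter ℕ) (fun n => Lam N l (v + Finsupp.single n a))

variable {N : c00 → ℝ}

lemma Lam_bound (h : Good κ p θ ⊤ N) (l : List ℝ) :
    ∀ v, Lam N l v ∈ Set.Icc 0 (N v + (l.map abs).sum) := by
  induction l with
  | nil => intro v; simp [Lam, h.nonneg]
  | cons a l ih =>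
    intro v
    have hb : ∀ n, Lam N l (v + Finsupp.single n a) ∈ Set.Icc 0 (N v + ((a :: l).map abs).sum) := by
      intro n
      have h1 := ih (v + Finsupp.single n a)
      have h2 := h.add_le v (Finsupp.single n a)
      have h3 := h.single_le' n a
      refine ⟨h1.1, h1.2.trans ?_⟩
      simp only [List.map_cons, List.sum_cons]
      linarith
    exact isClosed_Icc.mem_of_tendsto (ulim_exists _ hb) (Eventually.of_forall hb)

lemma Lam_tendsto (h : Good κ p θ ⊤ N) (a : ℝ) (l : List ℝ) (v : c00) :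
    Tendsto (fun n => Lam N l (v + Finsupp.single n a)) (hyperfilter ℕ : Filter ℕ)
      (𝓝 (Lam N (a :: l) v)) := by
  refine ulim_exists _ (M := N v + |a| + (l.map abs).sum) fun n => ?_
  have h1 := Lam_bound h l (v + Finsupp.single n a)
  have h2 := h.add_le v (Finsupp.single n a)
  have h3 := h.single_le' n a
  exact ⟨h1.1, h1.2.trans (by linarith)⟩

lemma Lam_filter (h : Good κ p θ ⊤ N) (l : List ℝ) :
    ∀ v, Lam N (l.filter (fun x => decide (x ≠ 0))) v = Lam N l v := by
  induction l with
  | nil => intro v; rfl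
  | cons a l ih =>
    intro v
    by_cases ha : a = 0
    · subst ha
      rw [List.filter_cons_of_neg (by simp), ih]
      have := Lam_tendsto h 0 l v
      simp only [Finsupp.single_zero, add_zero] at this
      exact tendsto_nhds_unique tendsto_const_nhds this
    · rw [List.filter_cons_of_pos (by simp [ha])]
      simp only [Lam, ih]

lemma Lam_approx (h : Good κ p θ ⊤ N) {J : Type} [Finite J] (M : ℕ) :
    ∀ (v : J → c00) (a : J → ℕ → ℝ) (O : J → Set ℝ) (b : ℕ), (∀ j, IsOpen (O j)) →
      (∀ j, Lam N ((List.range M).map (a j)) (v j) ∈ O j) →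
      ∃ g : ℕ → ℕ, StrictMono g ∧ b ≤ g 0 ∧
        ∀ j, N (v j + ∑ i ∈ range M, Finsupp.single (g i) (a j i)) ∈ O j := by
  induction M with
  | zero =>
    intro v a O b _ hO
    refine ⟨fun i => b + i, fun i j hij => by simpa using hij, by simp, fun j => ?_⟩
    simpa [Lam] using hO j
  | succ M ih =>
    intro v a O b hO1 hO
    have e : ∀ j, (List.range (M + 1)).map (a j) =
        a j 0 :: (List.range M).map (fun i => a j (i + 1)) := by
      intro j
      rw [List.range_succ_eq_map, List.map_cons, List.map_map]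
      rfl
    have h1 : ∀ᶠ n in (hyperfilter ℕ : Filter ℕ), ∀ j,
        Lam N ((List.range M).map (fun i => a j (i + 1))) (v j + Finsupp.single n (a j 0)) ∈ O j := by
      rw [Filter.eventually_all]
      intro j
      refine (Lam_tendsto h _ _ _).eventually ((hO1 j).mem_nhds ?_)
      rw [← e]; exact hO j
    have h2 : ∀ᶠ n in (hyperfilter ℕ : Filter ℕ), b ≤ n :=
      Nat.hyperfilter_le_atTop (eventually_ge_atTop b)
    obtain ⟨n, hn1, hn2⟩ := (h1.and h2).exists
    obtain ⟨g, hg1, hg2, hg3⟩ := ih (fun j => v j + Finsupp.single n (a j 0))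
      (fun j i => a j (i + 1)) O (n + 1) hO1 hn1
    refine ⟨scons n g, ?_, hn2, fun j => ?_⟩
    · refine strictMono_nat_of_lt_succ fun i => ?_
      cases i with
      | zero => exact hg2
      | succ i => exact hg1 (Nat.lt_succ_self i)
    · have := hg3 j
      rw [Finset.sum_range_succ']
      simp only [scons_succ, scons_zero]
      convert this using 2
      abel

/-- The spreading model. -/
noncomputable def sprd (N : c00 → ℝ) (a : c00) : ℝ := Lam N ((a.support.sort (· ≤ ·)).map a) 0

lemma sprd_eq (h : Good κ p θ ⊤ N) (a : c00) {M : ℕ} (hM : ∀ i ∈ a.support, i < M) :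
    sprd N a = Lam N ((List.range M).map a) 0 := by
  rw [← Lam_filter h ((List.range M).map a), List.filter_map, sprd]
  congr 2
  refine (Finset.sortedLT_sort _).pairwise.eq_of_mem_iff
    (List.Pairwise.filter _ List.pairwise_lt_range) fun i => ?_
  simp only [Finset.mem_sort, List.mem_filter, List.mem_range, Function.comp, decide_eq_true_eq]
  constructor
  · intro hi; exact ⟨hM i hi, Finsupp.mem_support_iff.1 hi⟩
  · intro hi; exact Finsupp.mem_support_iff.2 hi.2

lemma spread_sprd : Spread (sprd N) := by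
  classical
  intro g a hg
  simp only [sprd]
  congr 1
  have e : (Finsupp.mapDomain g a).support.sort (· ≤ ·) = (a.support.sort (· ≤ ·)).map g := by
    refine (Finset.sortedLT_sort _).pairwise.eq_of_mem_iff ?_ fun i => ?_
    · rw [List.pairwise_map]
      refine List.Pairwise.imp_of_mem ?_ (Finset.sortedLT_sort a.support).pairwise
      intro x y hx hy hxy
      exact hg ((Finset.mem_sort _).1 hx) ((Finset.mem_sort _).1 hy) hxy
    · rw [Finset.mem_sort, Finsupp.mapDomain_support_of_injOn a hg.injOn]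
      simp
  rw [e, List.map_map]
  refine List.map_congr_left fun i hi => ?_
  exact Finsupp.mapDomain_apply' _ a subset_rfl hg.injOn ((Finset.mem_sort _).1 hi)

lemma good_mapDomain (h : Good κ p θ ⊤ N) {g : ℕ → ℕ} (hg : StrictMono g) :
    Good κ p θ ⊤ (fun a => N (Finsupp.mapDomain g a)) :=
  h.comp (Finsupp.lmapDomain ℝ ℝ g) (fun i => by simpa using h.single_le (g i))
    (fun k _ => ⟨g k, ENat.natCast_lt_top _, fun a =>
      tail_mapDomain k (g k) g (fun _ => hg.le_iff_le) a⟩)

lemma good_sprd (hp : 0 ≤ p) (h : Good κ p θ ⊤ N) : Good κ p θ ⊤ (sprd N) := by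
  classical
  let φ : (ℕ → ℕ) → c00 → ℝ := fun g a => N (Finsupp.mapDomain g a)
  let F : Filter (ℕ → ℕ) := comap φ (𝓝 (sprd N)) ⊓ 𝓟 {g | StrictMono g}
  have : NeBot F := by
    rw [Filter.inf_principal_neBot_iff]
    intro U hU
    obtain ⟨t, ht, htU⟩ := Filter.mem_comap.1 hU
    rw [nhds_pi, Filter.mem_pi'] at ht
    obtain ⟨I, t', ht', hI⟩ := ht
    obtain ⟨M, hM⟩ : ∃ M, ∀ a ∈ I, ∀ i ∈ a.support, i < M := by
      refine ⟨I.sup (fun a => a.support.sup id) + 1, fun a ha i hi => Nat.lt_succ_of_le ?_⟩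
      exact (Finset.le_sup (f := id) hi).trans
        (Finset.le_sup (f := fun a : c00 => a.support.sup id) ha)
    obtain ⟨g, hg1, -, hg3⟩ := Lam_approx h (J := I) M (fun _ => 0) (fun j => (j : c00))
      (fun j => interior (t' j)) 0 (fun j => isOpen_interior)
      (fun j => by
        rw [← sprd_eq h (j : c00) (hM j j.2)]
        exact mem_interior_iff_mem_nhds.2 (ht' j))
    refine ⟨g, htU (hI fun a ha => ?_), hg1⟩
    have h1 := interior_subset (hg3 ⟨a, ha⟩)
    simp only [zero_add] at h1
    convert h1 using 1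
    simp only [φ, Finsupp.mapDomain]
    rw [Finsupp.sum_of_support_subset _ (s := range M)
      (fun i hi => Finset.mem_range.2 (hM a ha i hi)) _ (by simp)]
  refine Good.of_tendsto hp (F := F) (Ns := φ) (ns := fun _ => ⊤) ?_
    (fun k hk => Eventually.of_forall fun _ => hk) (fun a => ?_)
  · refine Filter.mem_inf_of_right ?_
    intro g hg
    exact good_mapDomain h hg
  · have h1 : Tendsto φ F (𝓝 (sprd N)) := tendsto_comap.mono_left inf_le_left
    exact tendsto_pi_nhds.1 h1 a

lemma blk_le (h : Good κ p θ ⊤ N) (hs : Spread N) {t : ℕ} (ht : 1 ≤ t) (a : c00) :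
    N (blk t a) ≤ N a := by
  have ht0 : (0 : ℝ) < t := by exact_mod_cast ht
  rw [blk_apply, h.smul, abs_of_pos (by positivity)]
  have h1 := h.sum_le (range t) (fun s => Finsupp.mapDomain (fun i => t * i + s) a)
  have h2 : ∀ s ∈ range t, N (Finsupp.mapDomain (fun i => t * i + s) a) = N a := by
    intro s _
    refine hs _ _ fun x _ y _ hxy => ?_
    have := Nat.mul_lt_mul_of_pos_left hxy (show 0 < t by omega)
    show t * x + s < t * y + s
    omega
  rw [Finset.sum_congr rfl h2] at h1
  simp only [Finset.sum_const, Finset.card_range, nsmul_eq_mul] at h1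
  rw [inv_mul_le_iff₀ ht0]
  exact h1

lemma good_blk (h : Good κ p θ ⊤ N) (hs : Spread N) {t : ℕ} (ht : 1 ≤ t) :
    Good κ p θ ⊤ (fun a => N (blk t a)) := by
  have ht0 : (0 : ℝ) < t := by exact_mod_cast ht
  refine h.comp (blk t) (fun i => (blk_le h hs ht _).trans (h.single_le i))
    (fun k _ => ⟨t * k, ENat.natCast_lt_top _, fun a => ?_⟩)
  rw [blk_apply, map_smul, map_sum]
  have h2 : ∀ s ∈ range t, tail (t * k) (Finsupp.mapDomain (fun i => t * i + s) a) = tail k a := by
    intro s hs'
    have hs'' := Finset.mem_range.1 hs'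
    refine tail_mapDomain k (t * k) _ (fun i => ?_) a
    constructor
    · intro h1
      by_contra h2
      have : t * (i + 1) ≤ t * k := Nat.mul_le_mul_left _ (by omega)
      rw [mul_add] at this
      omega
    · intro h1
      have : t * k ≤ t * i := Nat.mul_le_mul_left _ h1
      omega
  rw [Finset.sum_congr rfl h2]
  simp only [Finset.sum_const, Finset.card_range, nsmul_eq_mul, smul_eq_mul]
  field_simp

lemma spread_blk (hs : Spread N) {t : ℕ} (ht : 1 ≤ t) : Spread (fun a => N (blk t a)) := by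
  intro g a hg
  let g' : ℕ → ℕ := fun n => t * g (n / t) + n % t
  have g_eq : ∀ j s, s < t → g' (t * j + s) = t * g j + s := by
    intro j s hs
    have e1 : (t * j + s) / t = j := by
      rw [Nat.mul_add_div (by omega), Nat.div_eq_of_lt hs, add_zero]
    have e2 : (t * j + s) % t = s := by
      rw [Nat.mul_add_mod, Nat.mod_eq_of_lt hs]
    simp only [g', e1, e2]
  have e : blk t (Finsupp.mapDomain g a) = Finsupp.mapDomain g' (blk t a) := by
    rw [blk_apply, blk_apply, Finsupp.mapDomain_smul, Finsupp.mapDomain_finsetSum]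
    congr 1
    refine Finset.sum_congr rfl fun s hs' => ?_
    rw [← Finsupp.mapDomain_comp, ← Finsupp.mapDomain_comp]
    congr 1
    funext j
    exact (g_eq j s (Finset.mem_range.1 hs')).symm
  simp only
  rw [e]
  refine hs _ _ fun x hx y hy hxy => ?_
  obtain ⟨i, hi, s, hs1, rfl⟩ := mem_support_blk hx
  obtain ⟨j, hj, s', hs2, rfl⟩ := mem_support_blk hy
  rw [g_eq i s hs1, g_eq j s' hs2]
  rcases lt_trichotomy i j with h1 | h1 | h1
  · have h2 : t * (g i + 1) ≤ t * g j := Nat.mul_le_mul_left _ (hg hi hj h1)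
    rw [mul_add] at h2
    omega
  · subst h1; omega
  · have h2 : t * (j + 1) ≤ t * i := Nat.mul_le_mul_left _ h1
    rw [mul_add] at h2
    omega

theorem exists_invariant (hp : 0 ≤ p) (h : ∀ n : ℕ, ∃ N, Good κ p θ n N) {t : ℕ} (ht : 1 ≤ t) :
    ∃ N, Good κ p θ ⊤ N ∧ Spread N ∧ ∀ a, N (blk t a) = N a := by
  obtain ⟨N0, h0⟩ := exists_good_top hp h
  let Ns : ℕ → c00 → ℝ := fun j a => sprd N0 ((blk t)^[j] a)
  have hNs : ∀ j, Good κ p θ ⊤ (Ns j) ∧ Spread (Ns j) := by
    intro j
    induction j with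
    | zero => exact ⟨good_sprd hp h0, spread_sprd⟩
    | succ j ih => exact ⟨good_blk ih.1 ih.2 ht, spread_blk ih.2 ht⟩
  have hanti : ∀ a, Antitone (fun j => Ns j a) := fun a =>
    antitone_nat_of_succ_le fun j => blk_le (hNs j).1 (hNs j).2 ht a
  have hlim : ∀ a, Tendsto (fun j => Ns j a) atTop (𝓝 (⨅ j, Ns j a)) := fun a =>
    tendsto_atTop_ciInf (hanti a) ⟨0, by rintro _ ⟨j, rfl⟩; exact (hNs j).1.nonneg a⟩
  refine ⟨fun a => ⨅ j, Ns j a, ?_, ?_, ?_⟩
  · exact Good.of_tendsto hp (F := atTop) (Ns := Ns) (ns := fun _ => ⊤)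
      (Eventually.of_forall fun j => (hNs j).1) (fun k hk => Eventually.of_forall fun _ => hk) hlim
  · intro g a hg
    simp only
    congr 1
    funext j
    exact (hNs j).2 g a hg
  · intro a
    exact tendsto_nhds_unique (hlim (blk t a)) ((tendsto_add_atTop_iff_nat 1).2 (hlim a))

end Crest.Agent.R140
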