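import Crest.Agent.R140.Key2
import Crest.Agent.R140.Spread

/-!
Row 140 (S0191), part 8: a space with Markov type `p > 1` has no deep `ε`-separated midpoint trees.
-/

set_option autoImplicit false

namespace Crest.Agent.R140

open Finset Filter Topology

/-- Convex `p`-homogeneous cost functions with Markov type. -/
structure Cvx {V : Type*} [AddCommGroup V] [Module ℝ V] (κ p : ℝ) (Φ : V → ℝ) : Prop where
  nonneg : ∀ v, 0 ≤ Φ v
  cvx : ∀ u v (s r : ℝ), 0 ≤ s → 0 ≤ r → s + r = 1 → Φ (s • u + r • v) ≤ s * Φ u + r * Φ v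
  hom : ∀ (c : ℝ) v, Φ (c • v) = |c| ^ p * Φ v
  mt : MT κ Φ

section
variable {V V' : Type*} [AddCommGroup V] [Module ℝ V] [AddCommGroup V'] [Module ℝ V'] {κ p : ℝ}

lemma Cvx.comp {Φ : V → ℝ} (h : Cvx κ p Φ) (L : V' →ₗ[ℝ] V) : Cvx κ p (fun v => Φ (L v)) where
  nonneg v := h.nonneg _
  cvx u v s r hs hr hsr := by rw [map_add, map_smul, map_smul]; exact h.cvx _ _ _ _ hs hr hsr
  hom c v := by rw [map_smul]; exact h.hom _ _
  mt := h.mt.comp L.toAddMonoidHom

lemma Cvx.comb {Φ Ψ : V → ℝ} (h : Cvx κ p Φ) (h' : Cvx κ p Ψ) {a b : ℝ} (ha : 0 ≤ a) (hb : 0 ≤ b) :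
    Cvx κ p (fun v => a * Φ v + b * Ψ v) where
  nonneg v := add_nonneg (mul_nonneg ha (h.nonneg v)) (mul_nonneg hb (h'.nonneg v))
  cvx u v s r hs hr hsr := by
    have h1 := mul_le_mul_of_nonneg_left (h.cvx u v s r hs hr hsr) ha
    have h2 := mul_le_mul_of_nonneg_left (h'.cvx u v s r hs hr hsr) hb
    linarith
  hom c v := by rw [h.hom, h'.hom]; ring
  mt := (h.mt.const_mul ha).add (h'.mt.const_mul hb)

lemma Cvx.root_smul {Φ : V → ℝ} (h : Cvx κ p Φ) (hp : 0 < p) (c : ℝ) (v : V) :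
    Φ (c • v) ^ p⁻¹ = |c| * Φ v ^ p⁻¹ := by
  rw [h.hom, Real.mul_rpow (by positivity) (h.nonneg v),
    Real.rpow_rpow_inv (abs_nonneg c) hp.ne']

lemma Cvx.root_add {Φ : V → ℝ} (h : Cvx κ p Φ) (hp : 0 < p) (u v : V) :
    Φ (u + v) ^ p⁻¹ ≤ Φ u ^ p⁻¹ + Φ v ^ p⁻¹ := by
  have hle : ∀ w, Φ w ^ p⁻¹ ≤ 1 ↔ Φ w ≤ 1 := fun w => by
    constructor
    · intro h1
      have := Real.rpow_le_rpow (Real.rpow_nonneg (h.nonneg w) _) h1 hp.le
      rwa [Real.rpow_inv_rpow (h.nonneg w) hp.ne', Real.one_rpow] at this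
    · intro h1
      exact Real.rpow_le_one (h.nonneg w) h1 (by positivity)
  refine le_of_forall_pos_le_add fun ε hε => ?_
  have hu := Real.rpow_nonneg (h.nonneg u) p⁻¹
  have hv := Real.rpow_nonneg (h.nonneg v) p⁻¹
  set α := Φ u ^ p⁻¹ + ε / 2 with hα
  set β := Φ v ^ p⁻¹ + ε / 2 with hβ
  have hα0 : 0 < α := by positivity
  have hβ0 : 0 < β := by positivity
  have h1 : Φ (α⁻¹ • u) ≤ 1 := by
    rw [← hle, h.root_smul hp, abs_of_pos (by positivity), inv_mul_le_iff₀ hα0]; linarith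
  have h2 : Φ (β⁻¹ • v) ≤ 1 := by
    rw [← hle, h.root_smul hp, abs_of_pos (by positivity), inv_mul_le_iff₀ hβ0]; linarith
  have h3 := h.cvx (α⁻¹ • u) (β⁻¹ • v) (α / (α + β)) (β / (α + β)) (by positivity) (by positivity)
    (by field_simp)
  have e : (α / (α + β)) • α⁻¹ • u + (β / (α + β)) • β⁻¹ • v = (α + β)⁻¹ • (u + v) := by
    rw [smul_smul, smul_smul, smul_add]
    congr 2 <;> field_simp
  have h4 : Φ ((α + β)⁻¹ • (u + v)) ≤ 1 := by
    rw [← e]
    refine h3.trans ?_
    have e2 : α / (α + β) + β / (α + β) = 1 := by field_simp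
    have h5 := mul_le_mul_of_nonneg_left h1 (show 0 ≤ α / (α + β) by positivity)
    have h6 := mul_le_mul_of_nonneg_left h2 (show 0 ≤ β / (α + β) by positivity)
    linarith
  rw [← hle, h.root_smul hp, abs_of_pos (by positivity), inv_mul_le_iff₀ (by positivity)] at h4
  linarith

end

variable {X : Type*} [NormedAddCommGroup X] [NormedSpace ℝ X] {κ p : ℝ}

lemma norm_rpow_cvx (hp : 1 ≤ p) (u v : X) {s r : ℝ} (hs : 0 ≤ s) (hr : 0 ≤ r) (hsr : s + r = 1) :
    ‖s • u + r • v‖ ^ p ≤ s * ‖u‖ ^ p + r * ‖v‖ ^ p := by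
  have h1 : ‖s • u + r • v‖ ≤ s * ‖u‖ + r * ‖v‖ := by
    refine (norm_add_le _ _).trans ?_
    rw [norm_smul, norm_smul, Real.norm_of_nonneg hs, Real.norm_of_nonneg hr]
  refine (Real.rpow_le_rpow (norm_nonneg _) h1 (by linarith)).trans ?_
  exact (convexOn_rpow hp).2 (norm_nonneg u) (norm_nonneg v) hs hr hsr

lemma cvx_norm (hp : 1 ≤ p) (h : MT κ (fun v : X => ‖v‖ ^ p)) : Cvx κ p (fun v : X => ‖v‖ ^ p) where
  nonneg v := by positivity
  cvx u v s r hs hr hsr := norm_rpow_cvx hp u v hs hr hsr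
  hom c v := by rw [norm_smul, Real.mul_rpow (norm_nonneg _) (norm_nonneg _), Real.norm_eq_abs]
  mt := h

/-- Delete the first coordinate. -/
noncomputable def shl : c00 →ₗ[ℝ] c00 :=
  Finsupp.linearCombination ℝ (scons (0 : c00) (fun i => Finsupp.single i 1))

lemma shl_zero (x : ℝ) : shl (Finsupp.single 0 x) = 0 := by simp [shl]
lemma shl_succ (i : ℕ) (x : ℝ) : shl (Finsupp.single (i + 1) x) = Finsupp.single i x := by
  simp [shl]

lemma tail_succ (k : ℕ) (a : c00) : tail (k + 1) a = tail k (shl a) := by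
  induction a using Finsupp.induction_linear with
  | zero => simp
  | add f g hf hg => simp only [map_add, hf, hg]
  | single i x =>
    cases i with
    | zero => simp [shl_zero, tail_single]
    | succ i => simp [shl_succ, tail_single]

lemma tail_zero (a : c00) : tail 0 a = a 0 + tail 0 (shl a) := by
  induction a using Finsupp.induction_linear with
  | zero => simp
  | add f g hf hg => simp only [map_add, hf, hg, Finsupp.add_apply]; ring
  | single i x =>
    cases i with
    | zero => simp [shl_zero, tail_single]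
    | succ i => simp [shl_succ, tail_single]

/-- The cost function of an `ε`-separated martingale of length `n` starting at `x`. -/
structure Mart (κ p ε : ℝ) (n : ℕ) (x : X) (Φ : X × c00 → ℝ) : Prop where
  cvx : Cvx κ p Φ
  jensen : ∀ v a, ‖v + tail 0 a • x‖ ^ p ≤ Φ (v, a)
  lower : ∀ k < n, ∀ v a, (ε / 2 * |tail k a|) ^ p ≤ Φ (v, a)
  up1 : ∀ v, Φ (v, 0) ≤ ‖v‖ ^ p
  up2 : ∀ i, Φ (0, Finsupp.single i 1) ≤ 1

/-- One martingale step. -/
noncomputable def stepMap (y : X) : X × c00 →ₗ[ℝ] X × c00 :=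
  LinearMap.prod (LinearMap.fst ℝ X c00 +
    LinearMap.smulRight ((Finsupp.lapply 0).comp (LinearMap.snd ℝ X c00)) y)
    (shl.comp (LinearMap.snd ℝ X c00))

lemma stepMap_apply (y v : X) (a : c00) : stepMap y (v, a) = (v + a 0 • y, shl a) := by
  simp [stepMap]

/-- Iterated convex hulls of midpoints of `ε`-separated pairs. -/
def Dset (X : Type*) [NormedAddCommGroup X] [NormedSpace ℝ X] (ε : ℝ) : ℕ → Set X
  | 0 => Metric.closedBall 0 1
  | n + 1 => convexHull ℝ
      {z | ∃ x ∈ Dset X ε n, ∃ y ∈ Dset X ε n, ε ≤ ‖x - y‖ ∧ z = (1 / 2 : ℝ) • (x + y)}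

lemma Dset_convex (ε : ℝ) (n : ℕ) : Convex ℝ (Dset X ε n) := by
  cases n with
  | zero => exact convex_closedBall _ _
  | succ n => exact convex_convexHull _ _

lemma Dset_succ_subset (ε : ℝ) (n : ℕ) : Dset X ε (n + 1) ⊆ Dset X ε n := by
  refine convexHull_min ?_ (Dset_convex ε n)
  rintro z ⟨x, hx, y, hy, -, rfl⟩
  rw [smul_add]
  exact Dset_convex ε n hx hy (by norm_num) (by norm_num) (by norm_num)

lemma Dset_norm (ε : ℝ) (n : ℕ) : ∀ x ∈ Dset X ε n, ‖x‖ ≤ 1 := by
  induction n with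
  | zero => intro x hx; simpa [Dset] using hx
  | succ n ih => intro x hx; exact ih x (Dset_succ_subset ε n hx)

lemma Dset_neg (ε : ℝ) (n : ℕ) : ∀ x ∈ Dset X ε n, -x ∈ Dset X ε n := by
  induction n with
  | zero => intro x hx; simpa [Dset] using hx
  | succ n ih =>
    intro x hx
    have : Dset X ε (n + 1) ⊆ {x | -x ∈ Dset X ε (n + 1)} := by
      refine convexHull_min ?_
        ((Dset_convex (X := X) ε (n + 1)).linear_preimage (-LinearMap.id : X →ₗ[ℝ] X))
      rintro z ⟨x, hx, y, hy, hxy, rfl⟩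
      refine subset_convexHull ℝ _ ⟨-x, ih x hx, -y, ih y hy, ?_, ?_⟩
      · rwa [← norm_neg, neg_sub, neg_sub_neg]
      · rw [← smul_neg, neg_add]
    exact this hx

lemma Dset_mart (hp : 1 ≤ p) (h : MT κ (fun v : X => ‖v‖ ^ p)) {ε : ℝ} (hε : 0 ≤ ε) (n : ℕ) :
    ∀ x ∈ Dset X ε n, ∃ Φ, Mart κ p ε n x Φ := by
  have hp0 : 0 ≤ p := by linarith
  induction n with
  | zero =>
    intro x hx
    have hx1 := Dset_norm ε 0 x hx
    let L : X × c00 →ₗ[ℝ] X := LinearMap.fst ℝ X c00 +
      LinearMap.smulRight ((tail 0).comp (LinearMap.snd ℝ X c00)) x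
    refine ⟨fun w => ‖L w‖ ^ p, (cvx_norm hp h).comp L, ?_, ?_, ?_, ?_⟩
    · intro v a; simp [L]
    · intro k hk; omega
    · intro v; simp [L]
    · intro i
      simp only [L, LinearMap.add_apply, LinearMap.fst_apply, LinearMap.smulRight_apply,
        LinearMap.comp_apply, LinearMap.snd_apply, tail_single, zero_le, if_true, one_smul,
        zero_add]
      exact Real.rpow_le_one (norm_nonneg _) hx1 hp0
  | succ n ih =>
    have : Dset X ε (n + 1) ⊆ {x | ∃ Φ, Mart κ p ε (n + 1) x Φ} := by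
      refine convexHull_min ?_ ?_
      · rintro z ⟨x, hx, y, hy, hxy, rfl⟩
        obtain ⟨Φ, hΦ⟩ := ih x hx
        obtain ⟨Ψ, hΨ⟩ := ih y hy
        have j1 : ∀ v a, ‖v + tail 0 a • x‖ ^ p ≤ Φ (stepMap x (v, a)) := by
          intro v a
          rw [stepMap_apply, tail_zero, add_smul, ← add_assoc]
          exact hΦ.jensen _ _
        have j2 : ∀ v a, ‖v + tail 0 a • y‖ ^ p ≤ Ψ (stepMap y (v, a)) := by
          intro v a
          rw [stepMap_apply, tail_zero, add_smul, ← add_assoc]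
          exact hΨ.jensen _ _
        refine ⟨fun w => (1 / 2) * Φ (stepMap x w) + (1 / 2) * Ψ (stepMap y w),
          (hΦ.cvx.comp _).comb (hΨ.cvx.comp _) (by norm_num) (by norm_num), ?_, ?_, ?_, ?_⟩
        · intro v a
          have h1 := norm_rpow_cvx hp (v + tail 0 a • x) (v + tail 0 a • y)
            (s := 1 / 2) (r := 1 / 2) (by norm_num) (by norm_num) (by norm_num)
          have e : (1 / 2 : ℝ) • (v + tail 0 a • x) + (1 / 2 : ℝ) • (v + tail 0 a • y) =
              v + tail 0 a • (1 / 2 : ℝ) • (x + y) := by module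
          rw [e] at h1
          linarith [j1 v a, j2 v a]
        · intro k hk v a
          cases k with
          | zero =>
            have h1 := norm_rpow_cvx hp (v + tail 0 a • x) (-(v + tail 0 a • y))
              (s := 1 / 2) (r := 1 / 2) (by norm_num) (by norm_num) (by norm_num)
            have e : (1 / 2 : ℝ) • (v + tail 0 a • x) + (1 / 2 : ℝ) • (-(v + tail 0 a • y)) =
                (tail 0 a / 2) • (x - y) := by module
            rw [e, norm_neg, norm_smul] at h1
            have h2 : (ε / 2 * |tail 0 a|) ^ p ≤ (‖tail 0 a / 2‖ * ‖x - y‖) ^ p := by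
              refine Real.rpow_le_rpow (by positivity) ?_ hp0
              rw [Real.norm_eq_abs, abs_div, abs_two]
              nlinarith [abs_nonneg (tail 0 a)]
            linarith [j1 v a, j2 v a]
          | succ k =>
            simp only [stepMap_apply, tail_succ]
            linarith [hΦ.lower k (by omega) (v + a 0 • x) (shl a),
              hΨ.lower k (by omega) (v + a 0 • y) (shl a)]
        · intro v
          simp only [stepMap_apply, Finsupp.coe_zero, Pi.zero_apply, zero_smul, add_zero, map_zero]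
          linarith [hΦ.up1 v, hΨ.up1 v]
        · intro i
          cases i with
          | zero =>
            simp only [stepMap_apply, Finsupp.single_eq_same, one_smul, zero_add, shl_zero]
            have h1 := Real.rpow_le_one (norm_nonneg _) (Dset_norm ε n x hx) hp0
            have h2 := Real.rpow_le_one (norm_nonneg _) (Dset_norm ε n y hy) hp0
            linarith [hΦ.up1 x, hΨ.up1 y]
          | succ i =>
            have e : (Finsupp.single (i + 1) (1 : ℝ)) 0 = 0 := by simp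
            simp only [stepMap_apply, e, zero_smul, add_zero, shl_succ]
            linarith [hΦ.up2 i, hΨ.up2 i]
      · rintro x ⟨Φ, hΦ⟩ y ⟨Ψ, hΨ⟩ s r hs hr hsr
        refine ⟨fun w => s * Φ w + r * Ψ w, hΦ.cvx.comb hΨ.cvx hs hr, ?_, ?_, ?_, ?_⟩
        · intro v a
          have h1 := norm_rpow_cvx hp (v + tail 0 a • x) (v + tail 0 a • y) hs hr hsr
          have e : s • (v + tail 0 a • x) + r • (v + tail 0 a • y) =
              v + tail 0 a • (s • x + r • y) := by
            have : r = 1 - s := by linarith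
            subst this
            module
          rw [e] at h1
          have h2 := mul_le_mul_of_nonneg_left (hΦ.jensen v a) hs
          have h3 := mul_le_mul_of_nonneg_left (hΨ.jensen v a) hr
          linarith
        · intro k hk v a
          have h2 := mul_le_mul_of_nonneg_left (hΦ.lower k hk v a) hs
          have h3 := mul_le_mul_of_nonneg_left (hΨ.lower k hk v a) hr
          have : (s + r) * (ε / 2 * |tail k a|) ^ p = (ε / 2 * |tail k a|) ^ p := by
            rw [hsr, one_mul]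
          linarith
        · intro v
          have h2 := mul_le_mul_of_nonneg_left (hΦ.up1 v) hs
          have h3 := mul_le_mul_of_nonneg_left (hΨ.up1 v) hr
          have : (s + r) * ‖v‖ ^ p = ‖v‖ ^ p := by rw [hsr, one_mul]
          linarith
        · intro i
          have h2 := mul_le_mul_of_nonneg_left (hΦ.up2 i) hs
          have h3 := mul_le_mul_of_nonneg_left (hΨ.up2 i) hr
          linarith
    exact fun x hx => this hx

lemma Mart.good {ε : ℝ} (hε : 0 ≤ ε) (hp : 0 < p) {n : ℕ} {x : X} {Φ : X × c00 → ℝ}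
    (h : Mart κ p ε n x Φ) : Good κ p (ε / 2) n (fun a => Φ (0, a) ^ p⁻¹) := by
  have hc : Cvx κ p (fun a : c00 => Φ (0, a)) := h.cvx.comp (LinearMap.inr ℝ X c00)
  refine ⟨hc.root_add hp, hc.root_smul hp, ?_, ?_, ?_⟩
  · have : (fun v : c00 => (Φ (0, v) ^ p⁻¹) ^ p) = fun v => Φ (0, v) := by
      funext v
      exact Real.rpow_inv_rpow (hc.nonneg v) hp.ne'
    rw [this]
    exact hc.mt
  · intro i
    exact Real.rpow_le_one (hc.nonneg _) (h.up2 i) (by positivity)
  · intro k a hk
    have h1 := h.lower k (by exact_mod_cast hk) 0 a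
    have h2 := Real.rpow_le_rpow (by positivity) h1 (show 0 ≤ p⁻¹ by positivity)
    rwa [Real.rpow_rpow_inv (by positivity) hp.ne'] at h2

theorem Dset_empty (hp : 1 < p) (hκ : 0 ≤ κ) (h : MT κ (fun v : X => ‖v‖ ^ p)) {ε : ℝ}
    (hε : 0 < ε) : ∃ n, Dset X ε n = ∅ := by
  by_contra hcon
  push Not at hcon
  have hp0 : 0 < p := by linarith
  have h1 : ∀ n : ℕ, ∃ N, Good κ p (ε / 2) n N := by
    intro n
    obtain ⟨x, hx⟩ := hcon n
    obtain ⟨Φ, hΦ⟩ := Dset_mart hp.le h hε.le n x hx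
    exact ⟨_, hΦ.good hε.le hp0⟩
  obtain ⟨t, ht1, ht2⟩ : ∃ t : ℕ, 1 ≤ t ∧ 4 * κ * t < ((t : ℝ) / 2) ^ p := by
    have h2 : Tendsto (fun t : ℕ => ((t : ℝ) / 2) ^ (p - 1)) atTop atTop :=
      (tendsto_rpow_atTop (by linarith)).comp
        (tendsto_natCast_atTop_atTop.atTop_div_const (by norm_num))
    obtain ⟨t, ht1, ht2⟩ := ((h2.eventually_gt_atTop (8 * κ)).and (eventually_ge_atTop 1)).exists
    refine ⟨t, ht2, ?_⟩
    have ht0 : (0 : ℝ) < (t : ℝ) / 2 := by
      have : (0 : ℝ) < t := by exact_mod_cast ht2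
      positivity
    have e : ((t : ℝ) / 2) ^ p = ((t : ℝ) / 2) ^ (p - 1) * ((t : ℝ) / 2) := by
      rw [← Real.rpow_add_one ht0.ne']; congr 1; ring
    rw [e]
    nlinarith
  obtain ⟨N, hN, hs, hT⟩ := exists_invariant hp0.le h1 ht1
  exact no_good hN hκ hp0 (by positivity) hs ht1 hT ht2

end Crest.Agent.R140
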