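import Crest.Agent.R140.Mart

/-!
Row 140 (S0191), part 9: if all iterated midpoint sets are eventually empty, the space has an
equivalent uniformly convex norm (the renorming of G. Lancien, with midpoints in place of slices).
-/

set_option autoImplicit false

namespace Crest.Agent.R140

open Finset Filter Topology Metric

variable {X : Type*} [NormedAddCommGroup X] [NormedSpace ℝ X]

lemma infDist_cvx {D : Set X} (hD : Convex ℝ D) (x y : X) {s r : ℝ} (hs : 0 ≤ s) (hr : 0 ≤ r)
    (hsr : s + r = 1) : infDist (s • x + r • y) D ≤ s * infDist x D + r * infDist y D := by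
  rcases D.eq_empty_or_nonempty with rfl | hne
  · simp
  refine le_of_forall_pos_le_add fun η hη => ?_
  obtain ⟨x', hx', hx⟩ := (infDist_lt_iff hne).1 (lt_add_of_pos_right (infDist x D) hη)
  obtain ⟨y', hy', hy⟩ := (infDist_lt_iff hne).1 (lt_add_of_pos_right (infDist y D) hη)
  refine (infDist_le_dist_of_mem (hD hx' hy' hs hr hsr)).trans ?_
  rw [dist_eq_norm] at hx hy ⊢
  have e : s • x + r • y - (s • x' + r • y') = s • (x - x') + r • (y - y') := by module
  rw [e]
  refine (norm_add_le _ _).trans ?_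
  rw [norm_smul, norm_smul, Real.norm_of_nonneg hs, Real.norm_of_nonneg hr]
  have h1 := mul_le_mul_of_nonneg_left hx.le hs
  have h2 := mul_le_mul_of_nonneg_left hy.le hr
  have : (s + r) * η = η := by rw [hsr, one_mul]
  linarith

omit [NormedSpace ℝ X] in
lemma infDist_neg_le {D : Set X} (hD : ∀ x ∈ D, -x ∈ D) (x : X) : infDist (-x) D ≤ infDist x D := by
  rcases D.eq_empty_or_nonempty with rfl | hne
  · simp
  rw [le_infDist hne]
  intro y hy
  refine (infDist_le_dist_of_mem (hD y hy)).trans (le_of_eq ?_)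
  exact dist_neg_neg x y

lemma infDist_Dset_le (ε : ℝ) (n : ℕ) (x : X) : infDist x (Dset X ε n) ≤ ‖x‖ := by
  rcases (Dset X ε n).eq_empty_or_nonempty with h | ⟨y, hy⟩
  · simp [h]
  have h0 : (0 : X) ∈ Dset X ε n := by
    have := Dset_convex ε n hy (Dset_neg ε n y hy) (a := 1 / 2) (b := 1 / 2) (by norm_num)
      (by norm_num) (by norm_num)
    simpa using this
  simpa using infDist_le_dist_of_mem (x := x) h0

lemma exists_gap {ε : ℝ} (hε : 0 < ε) {N : ℕ} (hN : Dset X ε N = ∅) {x y : X} (hx : ‖x‖ ≤ 1)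
    (hy : ‖y‖ ≤ 1) (hxy : 2 * ε ≤ ‖x - y‖) :
    ∃ l < N, infDist ((1 / 2 : ℝ) • x + (1 / 2 : ℝ) • y) (Dset X ε l) + ε / (2 * N) ≤
      (1 / 2) * infDist x (Dset X ε l) + (1 / 2) * infDist y (Dset X ε l) := by
  by_contra hcon
  push Not at hcon
  set z := (1 / 2 : ℝ) • x + (1 / 2 : ℝ) • y with hz
  set γ := ε / (2 * N) with hγ
  have key : ∀ l ≤ N, ∃ z' ∈ Dset X ε l, ‖z - z'‖ ≤ γ * l := by
    intro l
    induction l with
    | zero =>
      intro _
      refine ⟨z, ?_, by simp⟩
      exact Dset_convex ε 0 (by simpa [Dset] using hx) (by simpa [Dset] using hy) (by norm_num)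
        (by norm_num) (by norm_num)
    | succ l ih =>
      intro hl
      obtain ⟨z', hz', hzz⟩ := ih (by omega)
      have hne : (Dset X ε l).Nonempty := ⟨z', hz'⟩
      have h1 := hcon l (by omega)
      have h2 : infDist z (Dset X ε l) ≤ γ * l :=
        (infDist_le_dist_of_mem hz').trans (by rwa [dist_eq_norm])
      set η := γ * (l + 1) - ((1 / 2) * infDist x (Dset X ε l) + (1 / 2) * infDist y (Dset X ε l))
        with hη
      have hη0 : 0 < η := by rw [hη]; linarith
      obtain ⟨x', hx', hx2⟩ := (infDist_lt_iff hne).1 (lt_add_of_pos_right (infDist x _) hη0)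
      obtain ⟨y', hy', hy2⟩ := (infDist_lt_iff hne).1 (lt_add_of_pos_right (infDist y _) hη0)
      rw [dist_eq_norm] at hx2 hy2
      have h3 : ‖x - x'‖ + ‖y - y'‖ ≤ 2 * (γ * (l + 1)) := by rw [hη] at hx2 hy2; linarith
      have hN0 : (0 : ℝ) < N := by exact_mod_cast (show 0 < N by omega)
      have h4 : 2 * (γ * (l + 1)) ≤ ε := by
        have h5 : (l : ℝ) + 1 ≤ N := by exact_mod_cast hl
        have h6 : γ * N = ε / 2 := by rw [hγ]; field_simp
        have h7 : 0 ≤ γ := by positivity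
        nlinarith
      refine ⟨(1 / 2 : ℝ) • (x' + y'), subset_convexHull ℝ _ ⟨x', hx', y', hy', ?_, rfl⟩, ?_⟩
      · have e : x - y = (x' - y') + ((x - x') - (y - y')) := by abel
        have h8 := norm_add_le (x' - y') ((x - x') - (y - y'))
        have h9 := norm_sub_le (x - x') (y - y')
        rw [← e] at h8
        linarith
      · have e : z - (1 / 2 : ℝ) • (x' + y') = (1 / 2 : ℝ) • ((x - x') + (y - y')) := by
          rw [hz]; module
        rw [e, norm_smul, Real.norm_of_nonneg (by norm_num)]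
        have h9 := norm_add_le (x - x') (y - y')
        push_cast
        linarith
  obtain ⟨z', hz', -⟩ := key N le_rfl
  rw [hN] at hz'
  exact hz'

theorem renorm (h : ∀ ε : ℝ, 0 < ε → ∃ n, Dset X ε n = ∅) :
    Crest.AnalysisR.HasEquivUniformlyConvexNorm X := by
  let e : ℕ → ℝ := fun k => (1 / 2) ^ k
  have he : ∀ k, 0 < e k := fun k => by positivity
  choose N hN using fun k => h (e k) (he k)
  have hN0 : ∀ k, (0 : ℝ) < N k := by
    intro k
    have : N k ≠ 0 := by
      intro h0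
      have h1 := hN k
      rw [h0] at h1
      have : (0 : X) ∈ Dset X (e k) 0 := by simp [Dset]
      rw [h1] at this
      exact this
    exact_mod_cast Nat.pos_of_ne_zero this
  let G : ℕ → X → ℝ := fun k x => (1 / 2 / 2 ^ k) *
    ((N k : ℝ)⁻¹ * ∑ l ∈ range (N k), infDist x (Dset X (e k) l))
  have G0 : ∀ k x, 0 ≤ G k x := fun k x => by
    have : 0 ≤ ∑ l ∈ range (N k), infDist x (Dset X (e k) l) :=
      Finset.sum_nonneg fun l _ => infDist_nonneg
    have := hN0 k
    positivity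
  have Gle : ∀ k (x : X) (c : ℝ) (φ : ℕ → ℝ), (∀ l, infDist x (Dset X (e k) l) ≤ φ l + c) →
      G k x ≤ (1 / 2 / 2 ^ k) * ((N k : ℝ)⁻¹ * ∑ l ∈ range (N k), φ l) + c / 2 / 2 ^ k := by
    intro k x c φ hφ
    have h1 : ∑ l ∈ range (N k), infDist x (Dset X (e k) l) ≤ ∑ l ∈ range (N k), φ l + N k * c := by
      refine (Finset.sum_le_sum fun l _ => hφ l).trans (le_of_eq ?_)
      simp [Finset.sum_add_distrib]
    have h2 := mul_le_mul_of_nonneg_left h1 (show 0 ≤ (N k : ℝ)⁻¹ by have := hN0 k; positivity)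
    have h3 := mul_le_mul_of_nonneg_left h2 (show 0 ≤ (1 / 2 / 2 ^ k : ℝ) by positivity)
    refine h3.trans (le_of_eq ?_)
    have := (hN0 k).ne'
    field_simp
  have G1 : ∀ k x, G k x ≤ ‖x‖ / 2 / 2 ^ k := fun k x => by
    have := Gle k x ‖x‖ (fun _ => 0) (fun l => by simpa using infDist_Dset_le (e k) l x)
    simpa using this
  have Gs : ∀ x, Summable (fun k => G k x) := fun x =>
    Summable.of_nonneg_of_le (fun k => G0 k x) (fun k => G1 k x) (summable_geometric_two' ‖x‖)
  have Gc : ∀ k (x y : X) (s r : ℝ), 0 ≤ s → 0 ≤ r → s + r = 1 →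
      G k (s • x + r • y) ≤ s * G k x + r * G k y := by
    intro k x y s r hs hr hsr
    have := Gle k (s • x + r • y) 0
      (fun l => s * infDist x (Dset X (e k) l) + r * infDist y (Dset X (e k) l))
      (fun l => by simpa using infDist_cvx (Dset_convex (e k) l) x y hs hr hsr)
    refine this.trans (le_of_eq ?_)
    simp only [G, Finset.sum_add_distrib, ← Finset.mul_sum]
    ring
  have Ggap : ∀ k (x y : X), ‖x‖ ≤ 1 → ‖y‖ ≤ 1 → 2 * e k ≤ ‖x - y‖ →
      G k ((1 / 2 : ℝ) • x + (1 / 2 : ℝ) • y) +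
        (1 / 2 / 2 ^ k) * ((N k : ℝ)⁻¹ * (e k / (2 * N k))) ≤ (1 / 2) * G k x + (1 / 2) * G k y := by
    intro k x y hx hy hxy
    obtain ⟨l, hl, hgap⟩ := exists_gap (he k) (hN k) hx hy hxy
    have h1 : e k / (2 * N k) ≤ ∑ l ∈ range (N k),
        ((1 / 2) * infDist x (Dset X (e k) l) + (1 / 2) * infDist y (Dset X (e k) l) -
          infDist ((1 / 2 : ℝ) • x + (1 / 2 : ℝ) • y) (Dset X (e k) l)) := by
      refine le_trans (by linarith) (Finset.single_le_sum (f := fun l =>
        (1 / 2) * infDist x (Dset X (e k) l) + (1 / 2) * infDist y (Dset X (e k) l) -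
          infDist ((1 / 2 : ℝ) • x + (1 / 2 : ℝ) • y) (Dset X (e k) l)) (fun l _ => ?_)
        (Finset.mem_range.2 hl))
      have := infDist_cvx (Dset_convex (e k) l) x y (s := 1 / 2) (r := 1 / 2) (by norm_num)
        (by norm_num) (by norm_num)
      linarith
    have h2 := mul_le_mul_of_nonneg_left h1 (show 0 ≤ (N k : ℝ)⁻¹ by have := hN0 k; positivity)
    have h3 := mul_le_mul_of_nonneg_left h2 (show 0 ≤ (1 / 2 / 2 ^ k : ℝ) by positivity)
    simp only [Finset.sum_sub_distrib, Finset.sum_add_distrib, ← Finset.mul_sum] at h3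
    simp only [G]
    linarith
  let f : X → ℝ := fun x => ‖x‖ + ∑' k, G k x
  have f_ge : ∀ x, ‖x‖ ≤ f x := fun x => le_add_of_nonneg_right (tsum_nonneg fun k => G0 k x)
  have f_le : ∀ x, f x ≤ 2 * ‖x‖ := fun x => by
    have := (Gs x).tsum_le_tsum (fun k => G1 k x) (summable_geometric_two' ‖x‖)
    rw [tsum_geometric_two'] at this
    simp only [f]; linarith
  have f_lip : ∀ x y, f x ≤ f y + 2 * ‖x - y‖ := fun x y => by
    have h1 : ∀ k, G k x ≤ G k y + ‖x - y‖ / 2 / 2 ^ k := fun k =>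
      Gle k x ‖x - y‖ _ (fun l => by rw [← dist_eq_norm]; exact infDist_le_infDist_add_dist)
    have := (Gs x).tsum_le_tsum h1 ((Gs y).add (summable_geometric_two' ‖x - y‖))
    rw [(Gs y).tsum_add (summable_geometric_two' ‖x - y‖), tsum_geometric_two'] at this
    have h2 := norm_sub_norm_le x y
    simp only [f]; linarith
  have f_neg : ∀ x, f (-x) ≤ f x := fun x => by
    have h1 : ∀ k, G k (-x) ≤ G k x := fun k => by
      have := Gle k (-x) 0 (fun l => infDist x (Dset X (e k) l))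
        (fun l => by simpa using infDist_neg_le (Dset_neg (e k) l) x)
      simpa [G] using this
    have := (Gs (-x)).tsum_le_tsum h1 (Gs x)
    simp only [f, norm_neg]; linarith
  have hsum : ∀ (x y : X) (s r : ℝ), ∑' k, (s * G k x + r * G k y) =
      s * ∑' k, G k x + r * ∑' k, G k y := fun x y s r => by
    rw [((Gs x).mul_left s).tsum_add ((Gs y).mul_left r), tsum_mul_left, tsum_mul_left]
  have hnorm : ∀ (x y : X) (s r : ℝ), 0 ≤ s → 0 ≤ r → ‖s • x + r • y‖ ≤ s * ‖x‖ + r * ‖y‖ := by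
    intro x y s r hs hr
    refine (norm_add_le _ _).trans ?_
    rw [norm_smul, norm_smul, Real.norm_of_nonneg hs, Real.norm_of_nonneg hr]
  have f_cvx : ∀ (x y : X) (s r : ℝ), 0 ≤ s → 0 ≤ r → s + r = 1 →
      f (s • x + r • y) ≤ s * f x + r * f y := by
    intro x y s r hs hr hsr
    have := (Gs _).tsum_le_tsum (fun k => Gc k x y s r hs hr hsr)
      (((Gs x).mul_left s).add ((Gs y).mul_left r))
    rw [hsum] at this
    have h2 := hnorm x y s r hs hr
    simp only [f]; linarith
  have f_gap : ∀ k (x y : X), ‖x‖ ≤ 1 → ‖y‖ ≤ 1 → 2 * e k ≤ ‖x - y‖ →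
      f ((1 / 2 : ℝ) • x + (1 / 2 : ℝ) • y) +
        (1 / 2 / 2 ^ k) * ((N k : ℝ)⁻¹ * (e k / (2 * N k))) ≤ (1 / 2) * f x + (1 / 2) * f y := by
    intro k x y hx hy hxy
    have hs2 := ((Gs x).mul_left (1 / 2)).add ((Gs y).mul_left (1 / 2))
    have h1 := (hs2.sub (Gs ((1 / 2 : ℝ) • x + (1 / 2 : ℝ) • y))).le_tsum k (fun j _ => by
      have := Gc j x y (1 / 2) (1 / 2) (by norm_num) (by norm_num) (by norm_num)
      linarith)
    rw [hs2.tsum_sub (Gs _), hsum] at h1
    have h2 := hnorm x y (1 / 2) (1 / 2) (by norm_num) (by norm_num)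
    have h3 := Ggap k x y hx hy hxy
    simp only [f]; linarith
  let A : Set X := {x | f x ≤ 1}
  have A_cvx : Convex ℝ A := by
    intro x hx y hy s r hs hr hsr
    have h1 := f_cvx x y s r hs hr hsr
    have h2 := mul_le_mul_of_nonneg_left (show f x ≤ 1 from hx) hs
    have h3 := mul_le_mul_of_nonneg_left (show f y ≤ 1 from hy) hr
    show f _ ≤ 1
    linarith
  have A_bal : Balanced ℝ A := (balanced_iff_neg_mem A_cvx).2 fun x hx => (f_neg x).trans hx
  have A_ball : ball (0 : X) (1 / 2) ⊆ A := by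
    intro x hx
    have h1 : ‖x‖ < 1 / 2 := by simpa using hx
    have := f_le x
    show f x ≤ 1
    linarith
  have A_nhds : A ∈ 𝓝 (0 : X) := mem_of_superset (ball_mem_nhds _ (by norm_num)) A_ball
  have A_abs : Absorbent ℝ A := absorbent_nhds_zero A_nhds
  have A_sub : A ⊆ closedBall 0 1 := fun x hx => by
    simpa using (f_ge x).trans hx
  have A_closed : IsClosed A := by
    have : LipschitzWith 2 f := LipschitzWith.of_le_add_mul _ fun x y => by
      rw [dist_eq_norm]; exact f_lip x y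
    exact isClosed_le this.continuous continuous_const
  have g_ge : ∀ x, ‖x‖ ≤ gauge A x := fun x => by
    simpa using le_gauge_of_subset_closedBall (x := x) A_abs zero_le_one A_sub
  have g_le : ∀ x, gauge A x ≤ 2 * ‖x‖ := fun x => by
    have := mul_gauge_le_norm (x := x) A_ball
    linarith
  refine ⟨gaugeSeminorm A_bal A_cvx A_abs, 1, 2, one_pos, two_pos,
    fun x => ⟨by rw [one_mul]; exact g_ge x, g_le x⟩, fun ε hε _ => ?_⟩
  obtain ⟨k, hk⟩ := exists_pow_lt_of_lt_one (show 0 < ε / 4 by positivity)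
    (show (1 / 2 : ℝ) < 1 by norm_num)
  set δ : ℝ := (1 / 2 / 2 ^ k) * ((N k : ℝ)⁻¹ * (e k / (2 * N k))) with hδ
  have hδ0 : 0 < δ := by have := hN0 k; have := he k; positivity
  refine ⟨1 - (1 + δ / 2)⁻¹, ?_, fun x y hx hy hxy => ?_⟩
  · rw [sub_pos]; exact inv_lt_one_of_one_lt₀ (by linarith)
  have hmem : ∀ u, gauge A u ≤ 1 → u ∈ A := fun u hu => by
    rw [← A_closed.closure_eq]; exact (gauge_le_one_iff_mem_closure A_cvx A_nhds).1 hu
  have hxA : f x ≤ 1 := hmem x hx
  have hyA : f y ≤ 1 := hmem y hy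
  have hx1 := (f_ge x).trans hxA
  have hy1 := (f_ge y).trans hyA
  have hxy' : 2 * e k ≤ ‖x - y‖ := by
    have h1 : ε ≤ gauge A (x - y) := hxy
    have h2 := g_le (x - y)
    simp only [e]
    linarith
  have h1 := f_gap k x y hx1 hy1 hxy'
  rw [← smul_add] at h1
  set z := (1 / 2 : ℝ) • (x + y) with hz
  have hz1 : ‖z‖ ≤ 1 := (f_ge z).trans (by linarith)
  have h2 : (1 + δ / 2) • z ∈ A := by
    have h3 := f_lip ((1 + δ / 2) • z) z
    have e1 : (1 + δ / 2) • z - z = (δ / 2) • z := by module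
    rw [e1, norm_smul, Real.norm_of_nonneg (by positivity)] at h3
    show f _ ≤ 1
    nlinarith
  show gauge A z ≤ _
  rw [sub_sub_cancel]
  refine gauge_le_of_mem (by positivity) ⟨_, h2, ?_⟩
  simp only [smul_smul]
  rw [inv_mul_cancel₀ (by positivity), one_smul]

end Crest.Agent.R140
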